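import Vale.Agent.Lib.P170.Defs

open Finset

namespace Vale.Agent.Lib.P170B

variable {Ω : Type} [DecidableEq Ω]

/-- Averaging operator: replace `S` by `S ∩ φ u` for a uniformly random `u`. -/
noncomputable def avgOp {U : Type} [Fintype U] (φ : U → Finset Ω) :
    Module.End ℝ (Finset Ω → ℝ) where
  toFun f := fun S => (∑ u, f (S ∩ φ u)) / (Fintype.card U : ℝ)
  map_add' f g := by
    funext S
    simp [Finset.sum_add_distrib, add_div]
  map_smul' c f := by
    funext S
    simp only [Pi.smul_apply, smul_eq_mul, RingHom.id_apply]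
    rw [← Finset.mul_sum, mul_div_assoc]

lemma avgOp_apply {U : Type} [Fintype U] (φ : U → Finset Ω) (f : Finset Ω → ℝ) (S : Finset Ω) :
    avgOp φ f S = (∑ u, f (S ∩ φ u)) / (Fintype.card U : ℝ) := rfl

/-- Any two averaging operators commute, since intersection does. -/
lemma avgOp_commute {U V : Type} [Fintype U] [Fintype V] (φ : U → Finset Ω) (ψ : V → Finset Ω) :
    Commute (avgOp φ) (avgOp ψ) := by
  apply LinearMap.ext
  intro f
  funext S
  show avgOp φ (avgOp ψ f) S = avgOp ψ (avgOp φ f) S
  simp only [avgOp_apply, Finset.sum_div]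
  rw [Finset.sum_comm]
  refine Finset.sum_congr rfl (fun v _ => Finset.sum_congr rfl (fun u _ => ?_))
  rw [Finset.inter_right_comm]
  ring

/-- Positive operators fixing the constants. -/
structure IsStoch (T : Module.End ℝ (Finset Ω → ℝ)) : Prop where
  mono : ∀ f g : Finset Ω → ℝ, (∀ S, f S ≤ g S) → ∀ S, T f S ≤ T g S
  const : ∀ c : ℝ, T (fun _ => c) = fun _ => c

lemma avgOp_stoch {U : Type} [Fintype U] [Nonempty U] (φ : U → Finset Ω) :
    IsStoch (avgOp φ) where
  mono f g h S := by
    simp only [avgOp_apply]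
    apply div_le_div_of_nonneg_right _ (by positivity)
    exact Finset.sum_le_sum (fun u _ => h _)
  const c := by
    funext S
    have h : (Fintype.card U : ℝ) ≠ 0 := by
      exact_mod_cast Fintype.card_ne_zero
    simp only [avgOp_apply, Finset.sum_const, Finset.card_univ, nsmul_eq_mul]
    field_simp

lemma IsStoch.one : IsStoch (1 : Module.End ℝ (Finset Ω → ℝ)) where
  mono f g h S := h S
  const _ := rfl

lemma IsStoch.comp {T T' : Module.End ℝ (Finset Ω → ℝ)} (hT : IsStoch T) (hT' : IsStoch T') :
    IsStoch (T * T') where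
  mono f g h S := hT.mono _ _ (hT'.mono f g h) S
  const c := by
    show T (T' fun _ => c) = _
    rw [hT'.const, hT.const]

lemma IsStoch.pow {T : Module.End ℝ (Finset Ω → ℝ)} (hT : IsStoch T) (M : ℕ) :
    IsStoch (T ^ M) := by
  induction M with
  | zero => simpa using IsStoch.one
  | succ M ih => rw [pow_succ]; exact ih.comp hT

lemma IsStoch.mix {T T' : Module.End ℝ (Finset Ω → ℝ)} (hT : IsStoch T) (hT' : IsStoch T')
    {a b : ℝ} (ha : 0 ≤ a) (hb : 0 ≤ b) (hab : a + b = 1) :
    IsStoch (a • T + b • T') where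
  mono f g h S := by
    simp only [LinearMap.add_apply, LinearMap.smul_apply, Pi.add_apply, Pi.smul_apply, smul_eq_mul]
    have h1 := hT.mono f g h S
    have h2 := hT'.mono f g h S
    have h3 := mul_le_mul_of_nonneg_left h1 ha
    have h4 := mul_le_mul_of_nonneg_left h2 hb
    linarith
  const c := by
    simp only [LinearMap.add_apply, LinearMap.smul_apply, hT.const, hT'.const]
    funext S
    simp only [Pi.add_apply, Pi.smul_apply, smul_eq_mul]
    have : b = 1 - a := by linarith
    rw [this]
    ring

/-- A stochastic operator commutes with adding constants. -/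
lemma IsStoch.add_const {T : Module.End ℝ (Finset Ω → ℝ)} (hT : IsStoch T) (f : Finset Ω → ℝ)
    (c : ℝ) (S : Finset Ω) : T (fun X => f X + c) S = T f S + c := by
  have h : (fun X => f X + c) = f + fun _ => c := rfl
  rw [h, map_add, hT.const]
  rfl

/-- The hybrid argument.  If `A`, `B` are commuting stochastic operators and on the function `e`
one has `B e ≤ A e + err` then `B ^ M e ≤ A ^ M e + M * err`. -/
lemma hybrid {A B : Module.End ℝ (Finset Ω → ℝ)} (hA : IsStoch A) (hB : IsStoch B)
    (hAB : Commute A B) (e : Finset Ω → ℝ) {err : ℝ}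
    (hstep : ∀ S, B e S ≤ A e S + err) (M : ℕ) :
    ∀ S, (B ^ M) e S ≤ (A ^ M) e S + M * err := by
  induction M with
  | zero => intro S; simp
  | succ M ih =>
    intro S
    have h1 : (B ^ (M + 1)) e S = (B ^ M) (B e) S := by rw [pow_succ]; rfl
    have h2 : (B ^ M) (B e) S ≤ (B ^ M) (fun X => A e X + err) S :=
      (hB.pow M).mono _ _ hstep S
    have h3 : (B ^ M) (fun X => A e X + err) S = (B ^ M) (A e) S + err :=
      (hB.pow M).add_const _ _ _
    have h4 : (B ^ M) (A e) S = A ((B ^ M) e) S := by
      have : B ^ M * A = A * B ^ M := (hAB.symm.pow_left M)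
      exact congrFun (congrArg (fun T : Module.End ℝ (Finset Ω → ℝ) => T e) this) S
    have h5 : A ((B ^ M) e) S ≤ A (fun X => (A ^ M) e X + M * err) S :=
      hA.mono _ _ ih S
    have h6 : A (fun X => (A ^ M) e X + M * err) S = A ((A ^ M) e) S + M * err :=
      hA.add_const _ _ _
    have h7 : A ((A ^ M) e) S = (A ^ (M + 1)) e S := by rw [pow_succ']; rfl
    calc (B ^ (M + 1)) e S = (B ^ M) (B e) S := h1
      _ ≤ (B ^ M) (fun X => A e X + err) S := h2
      _ = (B ^ M) (A e) S + err := h3
      _ = A ((B ^ M) e) S + err := by rw [h4]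
      _ ≤ A (fun X => (A ^ M) e X + M * err) S + err := by linarith
      _ = A ((A ^ M) e) S + M * err + err := by rw [h6]
      _ = (A ^ (M + 1)) e S + ((M + 1 : ℕ) : ℝ) * err := by rw [h7]; push_cast; ring

end Vale.Agent.Lib.P170B
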