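import Vale.Agent.Lib.P170.Defs

namespace Vale.Agent.Lib.P170B

/-- `C(a,k) N^k ≤ C(N,k) a^k` for `a ≤ N`. -/
lemma choose_mul_pow_le {a N : ℕ} (h : a ≤ N) (k : ℕ) :
    a.choose k * N ^ k ≤ N.choose k * a ^ k := by
  induction k with
  | zero => simp
  | succ k ih =>
    have h1 := Nat.choose_succ_right_eq a k
    have h2 := Nat.choose_succ_right_eq N k
    have h3 : (a - k) * N ≤ (N - k) * a := by
      rcases le_total a k with hak | hak
      · simp [Nat.sub_eq_zero_of_le hak]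
      · obtain ⟨c, rfl⟩ := Nat.exists_eq_add_of_le hak
        have hkN : k ≤ N := by omega
        obtain ⟨d, rfl⟩ := Nat.exists_eq_add_of_le hkN
        simp only [Nat.add_sub_cancel_left]
        have : c ≤ d := by omega
        nlinarith
    have h4 : (a.choose (k + 1) * N ^ (k + 1)) * (k + 1) ≤ (N.choose (k + 1) * a ^ (k + 1)) * (k + 1) := by
      calc (a.choose (k + 1) * N ^ (k + 1)) * (k + 1)
          = (a.choose (k + 1) * (k + 1)) * N ^ (k + 1) := by ring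
        _ = (a.choose k * (a - k)) * N ^ (k + 1) := by rw [h1]
        _ = (a.choose k * N ^ k) * ((a - k) * N) := by ring
        _ ≤ (N.choose k * a ^ k) * ((N - k) * a) := Nat.mul_le_mul ih h3
        _ = (N.choose k * (N - k)) * a ^ (k + 1) := by ring
        _ = (N.choose (k + 1) * (k + 1)) * a ^ (k + 1) := by rw [h2]
        _ = _ := by ring
    exact Nat.le_of_mul_le_mul_right h4 (Nat.succ_pos k)

/-- `C(n,j) (a-k)^j ≤ C(a,j) n^j` for `a ≤ n`, `j ≤ k`. -/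
lemma choose_mul_sub_pow_le {a n k : ℕ} (_h : a ≤ n) {j : ℕ} (hj : j ≤ k) :
    n.choose j * (a - k) ^ j ≤ a.choose j * n ^ j := by
  induction j with
  | zero => simp
  | succ j ih =>
    have ih' := ih (by omega)
    have h1 := Nat.choose_succ_right_eq a j
    have h2 := Nat.choose_succ_right_eq n j
    have h3 : (n - j) * (a - k) ≤ (a - j) * n := by
      have h5 : a - k ≤ a - j := by omega
      have h6 : n - j ≤ n := by omega
      calc (n - j) * (a - k) ≤ n * (a - j) := Nat.mul_le_mul h6 h5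
        _ = (a - j) * n := by ring
    have h4 : (n.choose (j + 1) * (a - k) ^ (j + 1)) * (j + 1) ≤ (a.choose (j + 1) * n ^ (j + 1)) * (j + 1) := by
      calc (n.choose (j + 1) * (a - k) ^ (j + 1)) * (j + 1)
          = (n.choose (j + 1) * (j + 1)) * (a - k) ^ (j + 1) := by ring
        _ = (n.choose j * (n - j)) * (a - k) ^ (j + 1) := by rw [h2]
        _ = (n.choose j * (a - k) ^ j) * ((n - j) * (a - k)) := by ring
        _ ≤ (a.choose j * n ^ j) * ((a - j) * n) := Nat.mul_le_mul ih' h3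
        _ = (a.choose j * (a - j)) * n ^ (j + 1) := by ring
        _ = (a.choose (j + 1) * (j + 1)) * n ^ (j + 1) := by rw [h1]
        _ = _ := by ring
    exact Nat.le_of_mul_le_mul_right h4 (Nat.succ_pos j)

/-- Real form of the upper bound. -/
lemma choose_div_le {a N k : ℕ} (h : a ≤ N) (hkN : k ≤ N) :
    (a.choose k : ℝ) / (N.choose k : ℝ) ≤ ((a : ℝ) / N) ^ k := by
  rcases Nat.eq_zero_or_pos N with rfl | hN
  · have : k = 0 := by omega
    subst this
    simp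
  have hN' : (0 : ℝ) < N := by exact_mod_cast hN
  have hc : (0 : ℝ) < (N.choose k : ℝ) := by exact_mod_cast Nat.choose_pos hkN
  rw [div_pow, div_le_div_iff₀ hc (by positivity)]
  have h3 : ((a.choose k * N ^ k : ℕ) : ℝ) ≤ ((N.choose k * a ^ k : ℕ) : ℝ) := by
    exact_mod_cast choose_mul_pow_le h k
  push_cast at h3
  linarith

/-- Real form of the lower bound, with `x = (a - k)₊ / n`. -/
lemma le_choose_div {a n k : ℕ} (h : a ≤ n) (hkn : k ≤ n) (hn : 0 < n) :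
    (((a - k : ℕ) : ℝ) / n) ^ k ≤ (a.choose k : ℝ) / (n.choose k : ℝ) := by
  have hn' : (0 : ℝ) < n := by exact_mod_cast hn
  have hc : (0 : ℝ) < (n.choose k : ℝ) := by exact_mod_cast Nat.choose_pos hkn
  rw [div_pow, div_le_div_iff₀ (by positivity) hc]
  have := choose_mul_sub_pow_le (k := k) h (le_refl k)
  have h2 : ((a - k : ℕ) : ℝ) ^ k * (n.choose k : ℝ) ≤ (a.choose k : ℝ) * (n : ℝ) ^ k := by
    have h3 : (((a - k) ^ k * n.choose k : ℕ) : ℝ) ≤ ((a.choose k * n ^ k : ℕ) : ℝ) := by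
      exact_mod_cast (by rw [mul_comm]; exact this)
    push_cast at h3
    simpa using h3
  exact h2

/-- The numerical core of the interpolation step. -/
lemma step_numeric {k a₁ a₂ n₁ n₂ : ℕ} (hk : 1 ≤ k) (h₁ : a₁ ≤ n₁) (h₂ : a₂ ≤ n₂)
    (hk₁ : k ≤ n₁) (hk₂ : k ≤ n₂) {q : ℝ} (hq0 : 0 ≤ q) (hq1 : q < 1) :
    q * (((a₁ + a₂).choose k : ℝ) / ((n₁ + n₂).choose k : ℝ)) ≤
      ((n₁ : ℝ) / (n₁ + n₂ : ℕ)) * ((a₁.choose k : ℝ) / (n₁.choose k : ℝ)) +
      ((n₂ : ℝ) / (n₁ + n₂ : ℕ)) * ((a₂.choose k : ℝ) / (n₂.choose k : ℝ)) +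
      (2 * (k : ℝ) ^ 2 / ((1 - q) * (n₁ + n₂ : ℕ))) ^ k := by
  have hn₁ : 0 < n₁ := by omega
  have hn₂ : 0 < n₂ := by omega
  set N : ℕ := n₁ + n₂ with hN
  have hNpos : 0 < N := by omega
  have hN' : (0 : ℝ) < N := by exact_mod_cast hNpos
  have hn₁' : (0 : ℝ) < n₁ := by exact_mod_cast hn₁
  have hn₂' : (0 : ℝ) < n₂ := by exact_mod_cast hn₂
  have hNsum : (N : ℝ) = n₁ + n₂ := by rw [hN]; push_cast; ring
  have h1q : 0 < 1 - q := by linarith
  set A₀ : ℝ := 2 * (k : ℝ) ^ 2 / (1 - q) with hA₀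
  have hA₀pos : 0 < A₀ := by
    have : (0 : ℝ) < k := by exact_mod_cast hk
    positivity
  have herr : (2 * (k : ℝ) ^ 2 / ((1 - q) * (N : ℝ))) = A₀ / N := by
    rw [hA₀]
    field_simp
  rw [herr]
  have haN : a₁ + a₂ ≤ N := by omega
  have hupper : ((a₁ + a₂).choose k : ℝ) / (N.choose k : ℝ) ≤ (((a₁ + a₂ : ℕ) : ℝ) / N) ^ k :=
    choose_div_le haN (by omega)
  have hpos1 : 0 ≤ ((n₁ : ℝ) / N) * ((a₁.choose k : ℝ) / (n₁.choose k : ℝ)) := by positivity
  have hpos2 : 0 ≤ ((n₂ : ℝ) / N) * ((a₂.choose k : ℝ) / (n₂.choose k : ℝ)) := by positivity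
  have hlhs : q * (((a₁ + a₂).choose k : ℝ) / (N.choose k : ℝ)) ≤ q * (((a₁ + a₂ : ℕ) : ℝ) / N) ^ k :=
    mul_le_mul_of_nonneg_left hupper hq0
  by_cases hcase : ((a₁ + a₂ : ℕ) : ℝ) ≤ A₀
  · -- few frozen literals
    have h3 : (((a₁ + a₂ : ℕ) : ℝ) / N) ^ k ≤ (A₀ / N) ^ k := by
      apply pow_le_pow_left₀ (by positivity)
      exact div_le_div_of_nonneg_right hcase hN'.le
    have h4 : q * (((a₁ + a₂ : ℕ) : ℝ) / N) ^ k ≤ (((a₁ + a₂ : ℕ) : ℝ) / N) ^ k := by
      have : 0 ≤ (((a₁ + a₂ : ℕ) : ℝ) / N) ^ k := by positivity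
      nlinarith
    linarith
  · -- many frozen literals: Jensen
    push Not at hcase
    set a : ℝ := ((a₁ + a₂ : ℕ) : ℝ) with ha
    have hapos : 0 < a := lt_trans hA₀pos hcase
    have hk0 : (0 : ℝ) < k := by exact_mod_cast hk
    -- Bernoulli
    have hfrac : 2 * (k : ℝ) / a ≤ (1 - q) / k := by
      rw [div_le_div_iff₀ hapos hk0]
      have := (div_lt_iff₀ h1q).1 (show 2 * (k : ℝ) ^ 2 / (1 - q) < a from hcase)
      nlinarith
    have hfrac1 : 2 * (k : ℝ) / a ≤ 1 := by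
      have h5 : (1 - q) / k ≤ 1 := by
        rw [div_le_one hk0]
        have : (1 : ℝ) ≤ k := by exact_mod_cast hk
        linarith
      linarith
    have hbern : q ≤ (1 - 2 * (k : ℝ) / a) ^ k := by
      have h6 := one_add_mul_le_pow (a := -(2 * (k : ℝ) / a)) (by linarith) k
      have h7 : (k : ℝ) * (2 * (k : ℝ) / a) ≤ 1 - q := by
        have := mul_le_mul_of_nonneg_left hfrac hk0.le
        have h8 : (k : ℝ) * ((1 - q) / k) = 1 - q := by field_simp
        linarith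
      have h9 : (1 - 2 * (k : ℝ) / a) = 1 + -(2 * (k : ℝ) / a) := by ring
      rw [h9]
      have h10 : 1 + (k : ℝ) * -(2 * (k : ℝ) / a) = 1 - k * (2 * (k : ℝ) / a) := by ring
      linarith
    -- local lower bounds
    set x₁ : ℝ := ((a₁ - k : ℕ) : ℝ) / n₁ with hx₁
    set x₂ : ℝ := ((a₂ - k : ℕ) : ℝ) / n₂ with hx₂
    have hx₁0 : 0 ≤ x₁ := by positivity
    have hx₂0 : 0 ≤ x₂ := by positivity
    have hl₁ : x₁ ^ k ≤ (a₁.choose k : ℝ) / (n₁.choose k : ℝ) := le_choose_div h₁ hk₁ hn₁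
    have hl₂ : x₂ ^ k ≤ (a₂.choose k : ℝ) / (n₂.choose k : ℝ) := le_choose_div h₂ hk₂ hn₂
    set w₁ : ℝ := (n₁ : ℝ) / N with hw₁
    set w₂ : ℝ := (n₂ : ℝ) / N with hw₂
    have hw₁0 : 0 ≤ w₁ := by positivity
    have hw₂0 : 0 ≤ w₂ := by positivity
    have hw : w₁ + w₂ = 1 := by
      rw [hw₁, hw₂, ← add_div, ← hNsum]
      exact div_self hN'.ne'
    have hjensen : (w₁ * x₁ + w₂ * x₂) ^ k ≤ w₁ * x₁ ^ k + w₂ * x₂ ^ k := by
      have := (convexOn_pow (𝕜 := ℝ) k).2 (Set.mem_Ici.2 hx₁0) (Set.mem_Ici.2 hx₂0) hw₁0 hw₂0 hw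
      simpa [smul_eq_mul] using this
    have hsum : (a - 2 * k) / N ≤ w₁ * x₁ + w₂ * x₂ := by
      have e1 : w₁ * x₁ = ((a₁ - k : ℕ) : ℝ) / N := by
        rw [hw₁, hx₁]
        field_simp
      have e2 : w₂ * x₂ = ((a₂ - k : ℕ) : ℝ) / N := by
        rw [hw₂, hx₂]
        field_simp
      rw [e1, e2, ← add_div]
      apply div_le_div_of_nonneg_right _ hN'.le
      have h11 : (a₁ : ℝ) - k ≤ ((a₁ - k : ℕ) : ℝ) := by
        rcases le_total a₁ k with h | h
        · have : ((a₁ : ℝ)) ≤ k := by exact_mod_cast h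
          have h0 : (0 : ℝ) ≤ ((a₁ - k : ℕ) : ℝ) := by positivity
          linarith
        · rw [Nat.cast_sub h]
      have h12 : (a₂ : ℝ) - k ≤ ((a₂ - k : ℕ) : ℝ) := by
        rcases le_total a₂ k with h | h
        · have : ((a₂ : ℝ)) ≤ k := by exact_mod_cast h
          have h0 : (0 : ℝ) ≤ ((a₂ - k : ℕ) : ℝ) := by positivity
          linarith
        · rw [Nat.cast_sub h]
      have h13 : a = (a₁ : ℝ) + a₂ := by rw [ha]; push_cast; ring
      linarith
    have h2k : 0 ≤ a - 2 * k := by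
      have := mul_le_mul_of_nonneg_right hfrac1 hapos.le
      have h14 : 2 * (k : ℝ) / a * a = 2 * k := by field_simp
      linarith
    have hpow : ((a - 2 * k) / N) ^ k ≤ (w₁ * x₁ + w₂ * x₂) ^ k :=
      pow_le_pow_left₀ (by positivity) hsum k
    have hmain : q * (a / N) ^ k ≤ ((a - 2 * k) / N) ^ k := by
      have h15 : (a - 2 * k) / N = (a / N) * (1 - 2 * (k : ℝ) / a) := by
        field_simp
      rw [h15, mul_pow]
      have h16 : 0 ≤ (a / N) ^ k := by positivity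
      nlinarith
    have h17 : 0 ≤ (A₀ / N) ^ k := by positivity
    have h18 : w₁ * x₁ ^ k ≤ w₁ * ((a₁.choose k : ℝ) / (n₁.choose k : ℝ)) :=
      mul_le_mul_of_nonneg_left hl₁ hw₁0
    have h19 : w₂ * x₂ ^ k ≤ w₂ * ((a₂.choose k : ℝ) / (n₂.choose k : ℝ)) :=
      mul_le_mul_of_nonneg_left hl₂ hw₂0
    linarith

end Vale.Agent.Lib.P170B
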