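import Vale.Agent.Lib.P170.Basic
import Vale.Agent.Lib.P170B.Hybrid
import Vale.Agent.Lib.P170B.Numeric

open Finset

namespace Vale.Agent.Lib.P170B

open Vale.Agent.Lib.P170

section Pow

variable {Ω : Type} [DecidableEq Ω] {U : Type} [Fintype U]

/-- Powers of an averaging operator: average over tuples. -/
lemma avgOp_pow [Nonempty U] (φ : U → Finset Ω) (j : ℕ) (f : Finset Ω → ℝ) (S : Finset Ω) :
    (avgOp φ ^ j) f S =
      (∑ F : Fin j → U, f (S.filter (fun σ => ∀ i, σ ∈ φ (F i)))) / (Fintype.card U : ℝ) ^ j := by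
  induction j generalizing S with
  | zero =>
    have h : ∀ F : Fin 0 → U, S.filter (fun σ => ∀ i, σ ∈ φ (F i)) = S := by
      intro F
      ext σ
      simp
    simp [h]
  | succ j ih =>
    have hU : (Fintype.card U : ℝ) ≠ 0 := by exact_mod_cast Fintype.card_ne_zero
    have h1 : (avgOp φ ^ (j + 1)) f S = avgOp φ ((avgOp φ ^ j) f) S := by
      rw [pow_succ']
      rfl
    rw [h1, avgOp_apply]
    simp only [ih]
    rw [← Equiv.sum_comp (Fin.consEquiv (fun _ => U)), Fintype.sum_prod_type]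
    have h2 : ∀ (u : U) (F : Fin j → U),
        S.filter (fun σ => ∀ i, σ ∈ φ ((Fin.consEquiv (fun _ => U)) (u, F) i)) =
          (S ∩ φ u).filter (fun σ => ∀ i, σ ∈ φ (F i)) := by
      intro u F
      ext σ
      simp only [Finset.mem_filter, Finset.mem_inter, Fin.forall_fin_succ, Fin.consEquiv]
      simp only [Equiv.coe_fn_mk, Fin.cons_zero, Fin.cons_succ]
      tauto
    simp only [h2]
    rw [← Finset.sum_div, pow_succ]
    field_simp

end Pow

variable {k n n₁ n₂ N : ℕ}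

open Classical in
/-- The set of assignments satisfying a clause. -/
noncomputable def satSet (C : ProperClause k N) : Finset (Fin N → Bool) :=
  Finset.univ.filter (fun σ => C.SatBy σ)

lemma mem_satSet {C : ProperClause k N} {σ : Fin N → Bool} : σ ∈ satSet C ↔ C.SatBy σ := by
  simp [satSet]

open Classical in
/-- Indicator of non-emptiness. -/
noncomputable def eInd {Ω : Type} (S : Finset Ω) : ℝ := if S.Nonempty then 1 else 0

lemma eInd_nonneg {Ω : Type} (S : Finset Ω) : 0 ≤ eInd S := by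
  unfold eInd
  split_ifs <;> norm_num

/-- Adding a uniformly random clause on all variables. -/
noncomputable def opG (k N : ℕ) : Module.End ℝ (Finset (Fin N → Bool) → ℝ) :=
  avgOp (satSet : ProperClause k N → Finset (Fin N → Bool))

/-- Adding a uniformly random clause on the block given by an embedding. -/
noncomputable def opL (k : ℕ) (e : Fin n ↪ Fin N) : Module.End ℝ (Finset (Fin N → Bool) → ℝ) :=
  avgOp (fun C : ProperClause k n => satSet (mapClause e C))

lemma nonempty_clause (hk : k ≤ n) : Nonempty (ProperClause k n) :=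
  Fintype.card_pos_iff.1 (card_pos_of_le hk)

open Classical in
/-- Evaluating powers of the global operator. -/
lemma opG_pow_eval (hk : k ≤ N) (j : ℕ) :
    (opG k N ^ j) eInd Finset.univ = satProb k N j := by
  haveI := nonempty_clause hk
  unfold opG satProb
  rw [avgOp_pow]
  congr 1
  rw [Finset.natCast_card_filter]
  refine Finset.sum_congr rfl (fun F _ => ?_)
  unfold eInd
  have h : ((Finset.univ : Finset (Fin N → Bool)).filter (fun σ => ∀ i, σ ∈ satSet (F i))).Nonempty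
      ↔ FormulaSat F := by
    constructor
    · rintro ⟨σ, hσ⟩
      refine ⟨σ, fun i => ?_⟩
      exact mem_satSet.1 ((Finset.mem_filter.1 hσ).2 i)
    · rintro ⟨σ, hσ⟩
      exact ⟨σ, Finset.mem_filter.2 ⟨Finset.mem_univ _, fun i => mem_satSet.2 (hσ i)⟩⟩
  simp only [h]

/-- Embedding of the first block. -/
def emb₁ (n₁ n₂ : ℕ) : Fin n₁ ↪ Fin (n₁ + n₂) := ⟨Fin.castAdd n₂, Fin.castAdd_injective _ _⟩

/-- Embedding of the second block. -/
def emb₂ (n₁ n₂ : ℕ) : Fin n₂ ↪ Fin (n₁ + n₂) := ⟨Fin.natAdd n₁, Fin.natAdd_injective _ _⟩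

open Classical in
/-- Evaluating mixed powers of the two block operators: the blocks are independent. -/
lemma opL_pow_eval (hk₁ : k ≤ n₁) (hk₂ : k ≤ n₂) (j l : ℕ) :
    (opL k (emb₁ n₁ n₂) ^ j) ((opL k (emb₂ n₁ n₂) ^ l) eInd) Finset.univ =
      satProb k n₁ j * satProb k n₂ l := by
  haveI := nonempty_clause hk₁
  haveI := nonempty_clause hk₂
  unfold opL satProb
  rw [avgOp_pow]
  simp only [avgOp_pow]
  have key : ∀ (F₁ : Fin j → ProperClause k n₁) (F₂ : Fin l → ProperClause k n₂),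
      eInd (((Finset.univ : Finset (Fin (n₁ + n₂) → Bool)).filter
        (fun σ => ∀ i, σ ∈ satSet (mapClause (emb₁ n₁ n₂) (F₁ i)))).filter
        (fun σ => ∀ i, σ ∈ satSet (mapClause (emb₂ n₁ n₂) (F₂ i)))) =
      (if FormulaSat F₁ then 1 else 0) * (if FormulaSat F₂ then 1 else 0) := by
    intro F₁ F₂
    have h : (((Finset.univ : Finset (Fin (n₁ + n₂) → Bool)).filter
        (fun σ => ∀ i, σ ∈ satSet (mapClause (emb₁ n₁ n₂) (F₁ i)))).filter
        (fun σ => ∀ i, σ ∈ satSet (mapClause (emb₂ n₁ n₂) (F₂ i)))).Nonempty ↔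
        (FormulaSat F₁ ∧ FormulaSat F₂) := by
      constructor
      · rintro ⟨σ, hσ⟩
        have h1 := (Finset.mem_filter.1 hσ)
        have h2 := (Finset.mem_filter.1 h1.1).2
        refine ⟨⟨σ ∘ emb₁ n₁ n₂, fun i => ?_⟩, ⟨σ ∘ emb₂ n₁ n₂, fun i => ?_⟩⟩
        · exact (satBy_map _ _ _).1 (mem_satSet.1 (h2 i))
        · exact (satBy_map _ _ _).1 (mem_satSet.1 (h1.2 i))
      · rintro ⟨⟨σ₁, h₁⟩, ⟨σ₂, h₂⟩⟩
        refine ⟨Fin.append σ₁ σ₂, ?_⟩
        have e1 : (Fin.append σ₁ σ₂) ∘ emb₁ n₁ n₂ = σ₁ := by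
          funext u
          simp [emb₁]
        have e2 : (Fin.append σ₁ σ₂) ∘ emb₂ n₁ n₂ = σ₂ := by
          funext u
          simp [emb₂]
        refine Finset.mem_filter.2 ⟨Finset.mem_filter.2 ⟨Finset.mem_univ _, fun i => ?_⟩, fun i => ?_⟩
        · apply mem_satSet.2
          apply (satBy_map _ _ _).2
          rw [e1]
          exact h₁ i
        · apply mem_satSet.2
          apply (satBy_map _ _ _).2
          rw [e2]
          exact h₂ i
    unfold eInd
    by_cases h1 : FormulaSat F₁ <;> by_cases h2 : FormulaSat F₂ <;> simp [h, h1, h2]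
  simp only [key]
  rw [Finset.natCast_card_filter, Finset.natCast_card_filter]
  simp only [← Finset.mul_sum, ← Finset.sum_mul, ← Finset.sum_div, mul_div_assoc]
  ring

section Kill

variable {S : Finset (Fin N → Bool)} {σ₀ : Fin N → Bool}

open Classical in
/-- The variables on which all assignments of `S` agree with `σ₀`. -/
noncomputable def frozen (S : Finset (Fin N → Bool)) (σ₀ : Fin N → Bool) : Finset (Fin N) :=
  Finset.univ.filter (fun v => ∀ σ ∈ S, σ v = σ₀ v)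

lemma inter_satSet_eq_empty {C : ProperClause k N} :
    S ∩ satSet C = ∅ ↔ ∀ σ ∈ S, ¬ C.SatBy σ := by
  rw [Finset.eq_empty_iff_forall_notMem]
  constructor
  · intro h σ hσ hs
    exact h σ (Finset.mem_inter.2 ⟨hσ, mem_satSet.2 hs⟩)
  · intro h σ hσ
    have h1 := Finset.mem_inter.1 hσ
    exact h σ h1.1 (mem_satSet.1 h1.2)

lemma bool_eq_of_ne_of_ne {a b c : Bool} (h1 : a ≠ c) (h2 : b ≠ c) : a = b := by
  cases a <;> cases b <;> cases c <;> simp_all

open Classical in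
/-- Killing clauses on all variables: at most one for each `k`-set of frozen variables. -/
lemma kill_global_le (h₀ : σ₀ ∈ S) :
    ((Finset.univ : Finset (ProperClause k N)).filter (fun C => S ∩ satSet C = ∅)).card ≤
      (frozen S σ₀).card.choose k := by
  rw [← Finset.card_powersetCard]
  refine Finset.card_le_card_of_injOn (fun C => C.1.1) ?_ ?_
  · intro C hC
    have hC' := inter_satSet_eq_empty.1 (Finset.mem_filter.1 hC).2
    refine Finset.mem_powersetCard.2 ⟨?_, C.1.2⟩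
    intro v hv
    refine Finset.mem_filter.2 ⟨Finset.mem_univ _, fun σ hσ => ?_⟩
    have h1 : σ v ≠ C.2 ⟨v, hv⟩ := fun h => hC' σ hσ ⟨⟨v, hv⟩, h⟩
    have h2 : σ₀ v ≠ C.2 ⟨v, hv⟩ := fun h => hC' σ₀ h₀ ⟨⟨v, hv⟩, h⟩
    exact bool_eq_of_ne_of_ne h1 h2
  · intro C hC D hD h
    have hC' := inter_satSet_eq_empty.1 (Finset.mem_filter.1 hC).2
    have hD' := inter_satSet_eq_empty.1 (Finset.mem_filter.1 hD).2
    obtain ⟨⟨T, hT⟩, f⟩ := C
    obtain ⟨⟨T', hT'⟩, g⟩ := D
    simp only at h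
    subst h
    have hfg : f = g := by
      funext v
      have h1 : σ₀ v.1 ≠ f v := fun h => hC' σ₀ h₀ ⟨v, h⟩
      have h2 : σ₀ v.1 ≠ g v := fun h => hD' σ₀ h₀ ⟨v, h⟩
      cases hf : f v <;> cases hg : g v <;> cases hs : σ₀ v.1 <;> simp_all
    subst hfg
    rfl

open Classical in
/-- Killing clauses on a block: at least one for each `k`-set of frozen variables of the block. -/
lemma kill_local_ge (e : Fin n ↪ Fin N) :
    ((Finset.univ.filter (fun u : Fin n => e u ∈ frozen S σ₀)).card).choose k ≤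
      ((Finset.univ : Finset (ProperClause k n)).filter
        (fun C => S ∩ satSet (mapClause e C) = ∅)).card := by
  rw [← Finset.card_powersetCard]
  refine Finset.card_le_card_of_surjOn (fun C => C.1.1) ?_
  intro T hT
  obtain ⟨hT1, hT2⟩ := Finset.mem_powersetCard.1 hT
  refine ⟨⟨⟨T, hT2⟩, fun u => !(σ₀ (e u.1))⟩, ?_, rfl⟩
  refine Finset.mem_filter.2 ⟨Finset.mem_univ _, inter_satSet_eq_empty.2 (fun σ hσ hsat => ?_)⟩
  obtain ⟨u, hu⟩ := (satBy_map _ _ _).1 hsat
  have h1 := (Finset.mem_filter.1 (hT1 u.2)).2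
  have h2 := (Finset.mem_filter.1 h1).2 σ hσ
  have hu' : σ (e u.1) = !(σ₀ (e u.1)) := hu
  rw [h2] at hu'
  cases hb : σ₀ (e u.1) <;> simp [hb] at hu'

open Classical in
lemma frozen_split (F : Finset (Fin (n₁ + n₂))) :
    (Finset.univ.filter (fun u : Fin n₁ => emb₁ n₁ n₂ u ∈ F)).card +
      (Finset.univ.filter (fun u : Fin n₂ => emb₂ n₁ n₂ u ∈ F)).card = F.card := by
  have h : F.card = ∑ v : Fin (n₁ + n₂), if v ∈ F then 1 else 0 := by
    rw [Finset.card_eq_sum_ones, ← Finset.sum_filter]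
    congr 1
    ext v
    simp
  rw [h, Fin.sum_univ_add, Finset.card_filter, Finset.card_filter]
  rfl

end Kill

section AvgInd

variable {Ω : Type} [DecidableEq Ω] {U : Type} [Fintype U]

open Classical in
lemma avgOp_eInd_nonempty [Nonempty U] (φ : U → Finset Ω) (S : Finset Ω) :
    avgOp φ eInd S =
      1 - ((Finset.univ.filter (fun u => S ∩ φ u = ∅)).card : ℝ) / (Fintype.card U : ℝ) := by
  have hU : (Fintype.card U : ℝ) ≠ 0 := by exact_mod_cast Fintype.card_ne_zero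
  have h : ∀ u, eInd (S ∩ φ u) = 1 - (if S ∩ φ u = ∅ then 1 else 0) := by
    intro u
    unfold eInd
    by_cases h0 : S ∩ φ u = ∅
    · simp [h0]
    · have := Finset.nonempty_iff_ne_empty.2 h0
      simp [h0, this]
  rw [avgOp_apply]
  simp only [h]
  rw [Finset.sum_sub_distrib, Finset.natCast_card_filter]
  simp only [Finset.sum_const, Finset.card_univ, nsmul_eq_mul, mul_one]
  field_simp

lemma avgOp_eInd_empty (φ : U → Finset Ω) : avgOp φ eInd (∅ : Finset Ω) = 0 := by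
  rw [avgOp_apply]
  simp [eInd]

end AvgInd

/-- The error term of the interpolation step. -/
noncomputable def errTerm (k : ℕ) (q : ℝ) (N : ℕ) : ℝ := (2 * (k : ℝ) ^ 2 / ((1 - q) * (N : ℝ))) ^ k

lemma errTerm_nonneg (k : ℕ) {q : ℝ} (hq : q < 1) (N : ℕ) : 0 ≤ errTerm k q N := by
  unfold errTerm
  have : 0 < 1 - q := by linarith
  positivity

/-- The global law with optional clauses: a clause with probability `q`, otherwise nothing. -/
noncomputable def opA (k N : ℕ) (q : ℝ) : Module.End ℝ (Finset (Fin N → Bool) → ℝ) :=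
  q • opG k N + (1 - q) • 1

/-- The local law: a clause in a block chosen proportionally to its size. -/
noncomputable def opB (k n₁ n₂ : ℕ) : Module.End ℝ (Finset (Fin (n₁ + n₂) → Bool) → ℝ) :=
  ((n₁ : ℝ) / (n₁ + n₂ : ℕ)) • opL k (emb₁ n₁ n₂) + ((n₂ : ℝ) / (n₁ + n₂ : ℕ)) • opL k (emb₂ n₁ n₂)

open Classical in
/-- The interpolation step: one local clause kills at least as well as `q` global clauses. -/
theorem step_ineq (hk : 1 ≤ k) (hk₁ : k ≤ n₁) (hk₂ : k ≤ n₂) {q : ℝ} (hq0 : 0 ≤ q) (hq1 : q < 1)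
    (S : Finset (Fin (n₁ + n₂) → Bool)) :
    opB k n₁ n₂ eInd S ≤ opA k (n₁ + n₂) q eInd S + errTerm k q (n₁ + n₂) := by
  haveI := nonempty_clause hk₁
  haveI := nonempty_clause hk₂
  haveI : Nonempty (ProperClause k (n₁ + n₂)) := nonempty_clause (by omega)
  have hErr := errTerm_nonneg k hq1 (n₁ + n₂)
  have hA : ∀ S, opA k (n₁ + n₂) q eInd S = q * opG k (n₁ + n₂) eInd S + (1 - q) * eInd S := by
    intro S
    rfl
  have hB : ∀ S, opB k n₁ n₂ eInd S =
      ((n₁ : ℝ) / (n₁ + n₂ : ℕ)) * opL k (emb₁ n₁ n₂) eInd S +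
      ((n₂ : ℝ) / (n₁ + n₂ : ℕ)) * opL k (emb₂ n₁ n₂) eInd S := by
    intro S
    rfl
  rcases S.eq_empty_or_nonempty with rfl | ⟨σ₀, hσ₀⟩
  · rw [hA, hB]
    have e1 : opL k (emb₁ n₁ n₂) eInd (∅ : Finset (Fin (n₁ + n₂) → Bool)) = 0 := avgOp_eInd_empty _
    have e2 : opL k (emb₂ n₁ n₂) eInd (∅ : Finset (Fin (n₁ + n₂) → Bool)) = 0 := avgOp_eInd_empty _
    have e3 : opG k (n₁ + n₂) eInd (∅ : Finset (Fin (n₁ + n₂) → Bool)) = 0 := avgOp_eInd_empty _
    have e4 : eInd (∅ : Finset (Fin (n₁ + n₂) → Bool)) = 0 := by simp [eInd]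
    rw [e1, e2, e3, e4]
    simpa using hErr
  · have hS : S.Nonempty := ⟨σ₀, hσ₀⟩
    rw [hA, hB]
    have e4 : eInd S = 1 := by simp [eInd, hS]
    have eG : opG k (n₁ + n₂) eInd S = _ := avgOp_eInd_nonempty _ S
    have e1 : opL k (emb₁ n₁ n₂) eInd S = _ := avgOp_eInd_nonempty _ S
    have e2 : opL k (emb₂ n₁ n₂) eInd S = _ := avgOp_eInd_nonempty _ S
    rw [e4, eG, e1, e2]
    simp only [card_clause]
    set F := frozen S σ₀ with hF
    set a₁ := (Finset.univ.filter (fun u : Fin n₁ => emb₁ n₁ n₂ u ∈ F)).card with ha₁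
    set a₂ := (Finset.univ.filter (fun u : Fin n₂ => emb₂ n₁ n₂ u ∈ F)).card with ha₂
    have hsplit : a₁ + a₂ = F.card := frozen_split F
    have hKG := kill_global_le (k := k) hσ₀
    have hK1 := kill_local_ge (k := k) (S := S) (σ₀ := σ₀) (emb₁ n₁ n₂)
    have hK2 := kill_local_ge (k := k) (S := S) (σ₀ := σ₀) (emb₂ n₁ n₂)
    rw [← hF] at hKG hK1 hK2
    rw [← hsplit] at hKG
    set KG := ((Finset.univ : Finset (ProperClause k (n₁ + n₂))).filter
      (fun C => S ∩ satSet C = ∅)).card with hKGdef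
    set K1 := ((Finset.univ : Finset (ProperClause k n₁)).filter
      (fun C => S ∩ satSet (mapClause (emb₁ n₁ n₂) C) = ∅)).card with hK1def
    set K2 := ((Finset.univ : Finset (ProperClause k n₂)).filter
      (fun C => S ∩ satSet (mapClause (emb₂ n₁ n₂) C) = ∅)).card with hK2def
    have ha₁le : a₁ ≤ n₁ := by
      have := Finset.card_le_univ (Finset.univ.filter (fun u : Fin n₁ => emb₁ n₁ n₂ u ∈ F))
      simpa using this
    have ha₂le : a₂ ≤ n₂ := by
      have := Finset.card_le_univ (Finset.univ.filter (fun u : Fin n₂ => emb₂ n₁ n₂ u ∈ F))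
      simpa using this
    have hnum := step_numeric hk ha₁le ha₂le hk₁ hk₂ hq0 hq1
    have hc0 : (0 : ℝ) < ((n₁ + n₂).choose k : ℝ) := by
      exact_mod_cast Nat.choose_pos (by omega : k ≤ n₁ + n₂)
    have hc1 : (0 : ℝ) < (n₁.choose k : ℝ) := by exact_mod_cast Nat.choose_pos hk₁
    have hc2 : (0 : ℝ) < (n₂.choose k : ℝ) := by exact_mod_cast Nat.choose_pos hk₂
    have h2k : (0 : ℝ) < 2 ^ k := by positivity
    have hw1 : (0 : ℝ) ≤ (n₁ : ℝ) / (n₁ + n₂ : ℕ) := by positivity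
    have hw2 : (0 : ℝ) ≤ (n₂ : ℝ) / (n₁ + n₂ : ℕ) := by positivity
    have hNpos : (0 : ℝ) < ((n₁ + n₂ : ℕ) : ℝ) := by
      have : 0 < n₁ + n₂ := by omega
      exact_mod_cast this
    have hw : (n₁ : ℝ) / (n₁ + n₂ : ℕ) + (n₂ : ℝ) / (n₁ + n₂ : ℕ) = 1 := by
      rw [← add_div]
      have e0 : ((n₁ : ℝ) + n₂) = ((n₁ + n₂ : ℕ) : ℝ) := by push_cast; ring
      rw [e0]
      exact div_self hNpos.ne'
    set w₁ : ℝ := (n₁ : ℝ) / (n₁ + n₂ : ℕ) with hw₁
    set w₂ : ℝ := (n₂ : ℝ) / (n₁ + n₂ : ℕ) with hw₂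
    set ε := errTerm k q (n₁ + n₂) with hε
    have hε' : (2 * (k : ℝ) ^ 2 / ((1 - q) * ((n₁ + n₂ : ℕ) : ℝ))) ^ k = ε := rfl
    rw [hε'] at hnum
    -- bounds on the kill fractions
    have b0 : (KG : ℝ) / (((n₁ + n₂).choose k * 2 ^ k : ℕ) : ℝ) ≤
        (((a₁ + a₂).choose k : ℝ) / ((n₁ + n₂).choose k : ℝ)) / 2 ^ k := by
      push_cast
      rw [div_div]
      apply div_le_div_of_nonneg_right _ (by positivity)
      exact_mod_cast hKG
    have b1 : ((a₁.choose k : ℝ) / (n₁.choose k : ℝ)) / 2 ^ k ≤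
        (K1 : ℝ) / ((n₁.choose k * 2 ^ k : ℕ) : ℝ) := by
      push_cast
      rw [div_div]
      apply div_le_div_of_nonneg_right _ (by positivity)
      exact_mod_cast hK1
    have b2 : ((a₂.choose k : ℝ) / (n₂.choose k : ℝ)) / 2 ^ k ≤
        (K2 : ℝ) / ((n₂.choose k * 2 ^ k : ℕ) : ℝ) := by
      push_cast
      rw [div_div]
      apply div_le_div_of_nonneg_right _ (by positivity)
      exact_mod_cast hK2
    set x0 : ℝ := (KG : ℝ) / (((n₁ + n₂).choose k * 2 ^ k : ℕ) : ℝ) with hx0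
    set x1 : ℝ := (K1 : ℝ) / ((n₁.choose k * 2 ^ k : ℕ) : ℝ) with hx1
    set x2 : ℝ := (K2 : ℝ) / ((n₂.choose k * 2 ^ k : ℕ) : ℝ) with hx2
    set y0 : ℝ := ((a₁ + a₂).choose k : ℝ) / ((n₁ + n₂).choose k : ℝ) with hy0
    set y1 : ℝ := (a₁.choose k : ℝ) / (n₁.choose k : ℝ) with hy1
    set y2 : ℝ := (a₂.choose k : ℝ) / (n₂.choose k : ℝ) with hy2
    have hsc : q * y0 / 2 ^ k ≤ w₁ * y1 / 2 ^ k + w₂ * y2 / 2 ^ k + ε / 2 ^ k := by
      rw [← add_div, ← add_div]
      exact div_le_div_of_nonneg_right hnum h2k.le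
    have hε2 : ε / 2 ^ k ≤ ε := by
      apply div_le_self hErr
      exact one_le_pow₀ (by norm_num)
    have h3 : q * x0 ≤ q * (y0 / 2 ^ k) := mul_le_mul_of_nonneg_left b0 hq0
    have h4 : w₁ * (y1 / 2 ^ k) ≤ w₁ * x1 := mul_le_mul_of_nonneg_left b1 hw1
    have h5 : w₂ * (y2 / 2 ^ k) ≤ w₂ * x2 := mul_le_mul_of_nonneg_left b2 hw2
    have e5 : q * (y0 / 2 ^ k) = q * y0 / 2 ^ k := by ring
    have e6 : w₁ * (y1 / 2 ^ k) = w₁ * y1 / 2 ^ k := by ring
    have e7 : w₂ * (y2 / 2 ^ k) = w₂ * y2 / 2 ^ k := by ring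
    have hfinal : q * x0 ≤ w₁ * x1 + w₂ * x2 + ε := by
      rw [e5] at h3
      rw [e6] at h4
      rw [e7] at h5
      linarith
    have hw2' : w₂ = 1 - w₁ := by linarith
    rw [hw2'] at hfinal ⊢
    have e8 : w₁ * (1 - x1) + (1 - w₁) * (1 - x2) = 1 - (w₁ * x1 + (1 - w₁) * x2) := by ring
    have e9 : q * (1 - x0) + (1 - q) * 1 + ε = 1 - q * x0 + ε := by ring
    rw [e8, e9]
    linarith

end Vale.Agent.Lib.P170B
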