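import Vale.Agent.Lib.P170B.Interp

open Finset

namespace Vale.Agent.Lib.P170B

open Vale.Agent.Lib.P170

variable {k n₁ n₂ N : ℕ}

lemma opA_stoch (hk : k ≤ N) {q : ℝ} (hq0 : 0 ≤ q) (hq1 : q ≤ 1) : IsStoch (opA k N q) := by
  haveI := nonempty_clause hk
  exact (avgOp_stoch _).mix IsStoch.one hq0 (by linarith) (by ring)

lemma opB_stoch (hk₁ : k ≤ n₁) (hk₂ : k ≤ n₂) (hk : 1 ≤ k) : IsStoch (opB k n₁ n₂) := by
  haveI := nonempty_clause hk₁
  haveI := nonempty_clause hk₂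
  have hNpos : (0 : ℝ) < ((n₁ + n₂ : ℕ) : ℝ) := by
    have : 0 < n₁ + n₂ := by omega
    exact_mod_cast this
  refine (avgOp_stoch _).mix (avgOp_stoch _) (by positivity) (by positivity) ?_
  rw [← add_div]
  have e0 : ((n₁ : ℝ) + n₂) = ((n₁ + n₂ : ℕ) : ℝ) := by push_cast; ring
  rw [e0]
  exact div_self hNpos.ne'

lemma opA_opB_commute (q : ℝ) : Commute (opA k (n₁ + n₂) q) (opB k n₁ n₂) := by
  unfold opA opB
  have h1 : Commute (opG k (n₁ + n₂)) (opL k (emb₁ n₁ n₂)) := avgOp_commute _ _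
  have h2 : Commute (opG k (n₁ + n₂)) (opL k (emb₂ n₁ n₂)) := avgOp_commute _ _
  apply Commute.add_left
  · apply Commute.smul_left
    apply Commute.add_right
    · exact h1.smul_right _
    · exact h2.smul_right _
  · apply Commute.smul_left
    exact Commute.one_left _

lemma end_mul_nat {E : Type} [AddCommGroup E] [Module ℝ E] (T : Module.End ℝ E) (c : ℕ) :
    T * (c : Module.End ℝ E) = (c : ℝ) • T := by
  apply LinearMap.ext
  intro f
  simp only [Module.End.mul_apply, Module.End.natCast_apply, map_nsmul, LinearMap.smul_apply]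
  exact (Nat.cast_smul_eq_nsmul ℝ c (T f)).symm

/-- Expansion of the powers of the optional-clause law. -/
lemma opA_pow_eval (hk : k ≤ N) (q : ℝ) (M : ℕ) :
    (opA k N q ^ M) eInd Finset.univ =
      ∑ j ∈ Finset.range (M + 1), (M.choose j : ℝ) * q ^ j * (1 - q) ^ (M - j) * satProb k N j := by
  unfold opA
  have hc : Commute (q • opG k N) ((1 - q) • (1 : Module.End ℝ (Finset (Fin N → Bool) → ℝ))) :=
    ((Commute.one_right _).smul_right _).smul_left _
  rw [hc.add_pow]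
  have hterm : ∀ j ∈ Finset.range (M + 1),
      (q • opG k N) ^ j * ((1 - q) • (1 : Module.End ℝ (Finset (Fin N → Bool) → ℝ))) ^ (M - j) *
          ((M.choose j : ℕ) : Module.End ℝ (Finset (Fin N → Bool) → ℝ)) =
        ((M.choose j : ℝ) * q ^ j * (1 - q) ^ (M - j)) • (opG k N) ^ j := by
    intro j _
    rw [end_mul_nat, smul_pow, smul_pow, one_pow, mul_smul_comm, mul_one, smul_smul, smul_smul]
    congr 1
    ring
  rw [Finset.sum_congr rfl hterm]
  rw [LinearMap.sum_apply, Finset.sum_apply]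
  refine Finset.sum_congr rfl (fun j _ => ?_)
  show ((M.choose j : ℝ) * q ^ j * (1 - q) ^ (M - j)) * ((opG k N) ^ j) eInd Finset.univ = _
  rw [opG_pow_eval hk]

/-- Expansion of the powers of the block law. -/
lemma opB_pow_eval (hk₁ : k ≤ n₁) (hk₂ : k ≤ n₂) (M : ℕ) :
    (opB k n₁ n₂ ^ M) eInd Finset.univ =
      ∑ j ∈ Finset.range (M + 1), (M.choose j : ℝ) * ((n₁ : ℝ) / (n₁ + n₂ : ℕ)) ^ j *
        ((n₂ : ℝ) / (n₁ + n₂ : ℕ)) ^ (M - j) * (satProb k n₁ j * satProb k n₂ (M - j)) := by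
  unfold opB
  set w₁ : ℝ := (n₁ : ℝ) / (n₁ + n₂ : ℕ) with hw₁
  set w₂ : ℝ := (n₂ : ℝ) / (n₁ + n₂ : ℕ) with hw₂
  have hc : Commute (w₁ • opL k (emb₁ n₁ n₂)) (w₂ • opL k (emb₂ n₁ n₂)) :=
    (Commute.smul_left (Commute.smul_right (avgOp_commute _ _) _) _)
  rw [hc.add_pow]
  have hterm : ∀ j ∈ Finset.range (M + 1),
      (w₁ • opL k (emb₁ n₁ n₂)) ^ j * (w₂ • opL k (emb₂ n₁ n₂)) ^ (M - j) *
          ((M.choose j : ℕ) : Module.End ℝ (Finset (Fin (n₁ + n₂) → Bool) → ℝ)) =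
        ((M.choose j : ℝ) * w₁ ^ j * w₂ ^ (M - j)) •
          ((opL k (emb₁ n₁ n₂)) ^ j * (opL k (emb₂ n₁ n₂)) ^ (M - j)) := by
    intro j _
    rw [end_mul_nat, smul_pow, smul_pow, smul_mul_smul_comm, smul_smul]
    congr 1
    ring
  rw [Finset.sum_congr rfl hterm]
  rw [LinearMap.sum_apply, Finset.sum_apply]
  refine Finset.sum_congr rfl (fun j _ => ?_)
  show ((M.choose j : ℝ) * w₁ ^ j * w₂ ^ (M - j)) *
    (((opL k (emb₁ n₁ n₂)) ^ j) ((opL k (emb₂ n₁ n₂) ^ (M - j)) eInd)) Finset.univ = _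
  rw [opL_pow_eval hk₁ hk₂]

/-- **Interpolation inequality** for the satisfiability probability: the block system with `M`
clauses distributed multinomially is at most as satisfiable as the global system with a
`Binomial(M, q)` number of clauses, up to `M` times a small error. -/
theorem interpolation (hk : 1 ≤ k) (hk₁ : k ≤ n₁) (hk₂ : k ≤ n₂) {q : ℝ} (hq0 : 0 ≤ q) (hq1 : q < 1)
    (M : ℕ) :
    ∑ j ∈ Finset.range (M + 1), (M.choose j : ℝ) * ((n₁ : ℝ) / (n₁ + n₂ : ℕ)) ^ j *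
        ((n₂ : ℝ) / (n₁ + n₂ : ℕ)) ^ (M - j) * (satProb k n₁ j * satProb k n₂ (M - j)) ≤
      ∑ j ∈ Finset.range (M + 1), (M.choose j : ℝ) * q ^ j * (1 - q) ^ (M - j) *
          satProb k (n₁ + n₂) j + M * errTerm k q (n₁ + n₂) := by
  rw [← opB_pow_eval hk₁ hk₂, ← opA_pow_eval (by omega)]
  exact hybrid (opA_stoch (by omega) hq0 hq1.le) (opB_stoch hk₁ hk₂ hk) (opA_opB_commute q) eInd
    (step_ineq hk hk₁ hk₂ hq0 hq1) M Finset.univ

/-- Chebyshev lower bound for binomial mixtures. -/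
lemma binom_lower {M : ℕ} {w : ℝ} (hw0 : 0 ≤ w) (hw1 : w ≤ 1) (h : ℕ → ℝ) (h0 : ∀ j, 0 ≤ h j)
    {v t : ℝ} (hv : 0 ≤ v) (ht : 0 < t) (hgood : ∀ j ≤ M, |(j : ℝ) - M * w| < t → v ≤ h j) :
    v * (1 - (M * w * (1 - w)) / t ^ 2) ≤
      ∑ j ∈ Finset.range (M + 1), (M.choose j : ℝ) * w ^ j * (1 - w) ^ (M - j) * h j := by
  have hb : ∀ j, (M.choose j : ℝ) * w ^ j * (1 - w) ^ (M - j) =
      Polynomial.eval w (bernsteinPolynomial ℝ M j) := by
    intro j
    simp [bernsteinPolynomial]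
  have hsum : ∑ j ∈ Finset.range (M + 1), (M.choose j : ℝ) * w ^ j * (1 - w) ^ (M - j) = 1 := by
    have := congrArg (Polynomial.eval w) (bernsteinPolynomial.sum ℝ M)
    simp only [Polynomial.eval_finsetSum, Polynomial.eval_one] at this
    exact (Finset.sum_congr rfl (fun j _ => hb j)).trans this
  have hvar : ∑ j ∈ Finset.range (M + 1), (M * w - j) ^ 2 *
      ((M.choose j : ℝ) * w ^ j * (1 - w) ^ (M - j)) = M * w * (1 - w) := by
    have := congrArg (Polynomial.eval w) (bernsteinPolynomial.variance ℝ M)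
    simp only [Polynomial.eval_finsetSum, Polynomial.eval_mul, Polynomial.eval_pow,
      Polynomial.eval_sub, Polynomial.eval_X, Polynomial.eval_natCast,
      Polynomial.eval_one, nsmul_eq_mul] at this
    refine Eq.trans ?_ this
    refine Finset.sum_congr rfl (fun j _ => ?_)
    rw [hb j]
  have ht2 : 0 < t ^ 2 := by positivity
  have hterm : ∀ j ∈ Finset.range (M + 1),
      v * ((M.choose j : ℝ) * w ^ j * (1 - w) ^ (M - j)) -
        v * (((M * w - j) ^ 2 * ((M.choose j : ℝ) * w ^ j * (1 - w) ^ (M - j))) / t ^ 2) ≤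
      (M.choose j : ℝ) * w ^ j * (1 - w) ^ (M - j) * h j := by
    intro j hj
    have hjM : j ≤ M := by
      have := Finset.mem_range.1 hj
      omega
    set b : ℝ := (M.choose j : ℝ) * w ^ j * (1 - w) ^ (M - j) with hbdef
    have hb0 : 0 ≤ b := by
      have : 0 ≤ 1 - w := by linarith
      positivity
    have e : v * b - v * ((M * w - j) ^ 2 * b / t ^ 2) = b * (v * (1 - (M * w - j) ^ 2 / t ^ 2)) := by
      ring
    rw [e]
    apply mul_le_mul_of_nonneg_left _ hb0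
    by_cases hc : |(j : ℝ) - M * w| < t
    · have h1 := hgood j hjM hc
      have h2 : 0 ≤ (M * w - j) ^ 2 / t ^ 2 := by positivity
      nlinarith
    · push Not at hc
      have h3 : t ^ 2 ≤ (M * w - j) ^ 2 := by
        have h4 : t ^ 2 ≤ |(j : ℝ) - M * w| ^ 2 := pow_le_pow_left₀ ht.le hc 2
        rw [sq_abs] at h4
        nlinarith
      have h5 : 1 ≤ (M * w - j) ^ 2 / t ^ 2 := by
        rw [one_le_div ht2]
        exact h3
      have h6 : v * (1 - (M * w - j) ^ 2 / t ^ 2) ≤ 0 := by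
        apply mul_nonpos_of_nonneg_of_nonpos hv
        linarith
      exact h6.trans (h0 j)
  refine le_trans (le_of_eq ?_) (Finset.sum_le_sum hterm)
  rw [Finset.sum_sub_distrib, ← Finset.mul_sum, ← Finset.mul_sum, hsum, ← Finset.sum_div, hvar]
  ring

/-- The master inequality, from which all the threshold statements follow. -/
theorem master (hk : 1 ≤ k) (hk₁ : k ≤ n₁) (hk₂ : k ≤ n₂) {q : ℝ} (hq0 : 0 ≤ q) (hq1 : q < 1)
    {M J J₁ J₂ : ℕ} {t : ℝ} (ht : 0 < t)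
    (hJ : (J : ℝ) < M * q)
    (ht₁ : (M : ℝ) * ((n₁ : ℝ) / (n₁ + n₂ : ℕ)) + t ≤ J₁)
    (ht₂ : (M : ℝ) * ((n₂ : ℝ) / (n₁ + n₂ : ℕ)) + t ≤ J₂) :
    satProb k n₁ J₁ * satProb k n₂ J₂ *
        (1 - ((M : ℝ) * ((n₁ : ℝ) / (n₁ + n₂ : ℕ)) * ((n₂ : ℝ) / (n₁ + n₂ : ℕ))) / t ^ 2) ≤
      satProb k (n₁ + n₂) J + (M * q * (1 - q)) / (M * q - J) ^ 2 +
        M * errTerm k q (n₁ + n₂) := by
  have hNpos : (0 : ℝ) < ((n₁ + n₂ : ℕ) : ℝ) := by
    have : 0 < n₁ + n₂ := by omega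
    exact_mod_cast this
  set w₁ : ℝ := (n₁ : ℝ) / (n₁ + n₂ : ℕ) with hw₁
  set w₂ : ℝ := (n₂ : ℝ) / (n₁ + n₂ : ℕ) with hw₂
  have hw : w₁ + w₂ = 1 := by
    rw [hw₁, hw₂, ← add_div]
    have e0 : ((n₁ : ℝ) + n₂) = ((n₁ + n₂ : ℕ) : ℝ) := by push_cast; ring
    rw [e0]
    exact div_self hNpos.ne'
  have hw₁0 : 0 ≤ w₁ := by positivity
  have hw₂0 : 0 ≤ w₂ := by positivity
  have hw₂e : 1 - w₁ = w₂ := by linarith
  have hM₁ := card_pos_of_le (k := k) hk₁
  have hM₂ := card_pos_of_le (k := k) hk₂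
  have hMN := card_pos_of_le (k := k) (n := n₁ + n₂) (by omega)
  have hinterp := interpolation hk hk₁ hk₂ hq0 hq1 M
  have hA := binomial_mix_le hq0 hq1.le (fun j => satProb k (n₁ + n₂) j) (satProb_nonneg k _)
    (satProb_le_one k _) (satProb_antitone hMN) hJ
  have hB := binom_lower (M := M) hw₁0 (by linarith) (fun j => satProb k n₁ j * satProb k n₂ (M - j))
    (fun j => mul_nonneg (satProb_nonneg _ _ _) (satProb_nonneg _ _ _))
    (v := satProb k n₁ J₁ * satProb k n₂ J₂)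
    (mul_nonneg (satProb_nonneg _ _ _) (satProb_nonneg _ _ _)) ht (by
      intro j hjM hj
      have habs := abs_lt.1 hj
      have h1 : j ≤ J₁ := by
        have : (j : ℝ) < J₁ := by linarith [habs.2]
        exact_mod_cast this.le
      have h2 : M - j ≤ J₂ := by
        have hcast : ((M - j : ℕ) : ℝ) = (M : ℝ) - j := Nat.cast_sub hjM
        have hw₂M : (M : ℝ) * w₁ + M * w₂ = M := by
          have : (M : ℝ) * (w₁ + w₂) = M := by rw [hw, mul_one]
          linarith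
        have : ((M - j : ℕ) : ℝ) < J₂ := by
          rw [hcast]
          linarith [habs.1]
        exact_mod_cast this.le
      show satProb k n₁ J₁ * satProb k n₂ J₂ ≤ satProb k n₁ j * satProb k n₂ (M - j)
      exact mul_le_mul (satProb_antitone hM₁ h1) (satProb_antitone hM₂ h2)
        (satProb_nonneg _ _ _) (satProb_nonneg _ _ _))
  simp only [hw₂e] at hB
  have hmul : (M : ℝ) * w₁ * w₂ / t ^ 2 = (M : ℝ) * w₁ * w₂ / t ^ 2 := rfl
  linarith

end Vale.Agent.Lib.P170B
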