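import Vale.Agent.Lib.P170B.Scale

open Filter Topology

namespace Vale.Agent.Lib.P170B

open Vale.Agent.Lib.P170

variable {k : ℕ} {r : ℕ → ℝ}

/-- The ceiling of `N / n` and the ratio it produces. -/
lemma ceil_facts {n N : ℕ} (hn : 0 < n) (hnN : n ≤ N) :
    ∃ q : ℕ, 1 ≤ q ∧ N ≤ q * n ∧ (q : ℝ) < (N : ℝ) / n + 1 ∧
      1 - (n : ℝ) / N ≤ (N : ℝ) / (q * n) ∧ (N : ℝ) / (q * n) ≤ 1 := by
  have hnr : (0 : ℝ) < n := by exact_mod_cast hn
  have hNr : (0 : ℝ) < N := by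
    have : 0 < N := by omega
    exact_mod_cast this
  have hratio : (0 : ℝ) < (N : ℝ) / n := by positivity
  obtain ⟨q, hq⟩ : ∃ q, q = ⌈(N : ℝ) / n⌉₊ := ⟨_, rfl⟩
  have hq1 : (N : ℝ) / n ≤ q := by rw [hq]; exact Nat.le_ceil _
  have hq2 : (q : ℝ) < (N : ℝ) / n + 1 := by rw [hq]; exact Nat.ceil_lt_add_one hratio.le
  have hqpos : (0 : ℝ) < q := lt_of_lt_of_le hratio hq1
  have hqn : (0 : ℝ) < q * n := by positivity
  have hNq : (N : ℝ) ≤ q * n := (div_le_iff₀ hnr).1 hq1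
  refine ⟨q, ?_, ?_, hq2, ?_, ?_⟩
  · exact_mod_cast hqpos
  · exact_mod_cast hNq
  · have h1 : (q : ℝ) * n ≤ N + n := by
      have := mul_lt_mul_of_pos_right hq2 hnr
      have e : ((N : ℝ) / n + 1) * n = N + n := by field_simp
      linarith
    rw [le_div_iff₀ hqn]
    have e : (1 - (n : ℝ) / N) * (q * n) = (q * n) - (n : ℝ) / N * (q * n) := by ring
    have h2 : (1 - (n : ℝ) / N) * (q * n) ≤ (1 - (n : ℝ) / N) * (N + n) := by
      apply mul_le_mul_of_nonneg_left h1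
      have : (n : ℝ) / N ≤ 1 := by
        rw [div_le_one hNr]
        exact_mod_cast hnN
      linarith
    have h3 : (1 - (n : ℝ) / N) * (N + n) = N - (n : ℝ) ^ 2 / N := by
      field_simp
      ring
    have h4 : 0 ≤ (n : ℝ) ^ 2 / N := by positivity
    linarith
  · rw [div_le_one hqn]
    exact hNq

/-- Bernoulli step for the ratio. -/
lemma ratio_pow_lower {a s' : ℝ} {L : ℕ} (hL : 1 ≤ L) (ha : 1 - 1 / (L : ℝ) ≤ a) (hs' : 0 ≤ s')
    (j : ℕ) : (1 - (j : ℝ) / L) * s' ≤ a ^ j * s' := by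
  apply mul_le_mul_of_nonneg_right _ hs'
  have hLr : (1 : ℝ) ≤ L := by exact_mod_cast hL
  have h0 : 0 ≤ 1 - 1 / (L : ℝ) := by
    have : 1 / (L : ℝ) ≤ 1 := by
      rw [div_le_one (by linarith)]
      exact hLr
    linarith
  have h1 := one_add_mul_le_pow (a := -(1 / (L : ℝ))) (by
    have : 1 / (L : ℝ) ≤ 1 := by
      rw [div_le_one (by linarith)]
      exact hLr
    linarith) j
  have h2 : (1 + -(1 / (L : ℝ))) ^ j ≤ a ^ j := by
    apply pow_le_pow_left₀ (by linarith)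
    linarith
  have h3 : 1 + (j : ℝ) * -(1 / (L : ℝ)) = 1 - (j : ℝ) / L := by ring
  linarith

/-- Choice of the ratio `L`. -/
lemma exists_L (j : ℕ) {s' δ : ℝ} (hδ : 0 < δ) :
    ∃ L : ℕ, 1 ≤ L ∧ (j : ℝ) / L * s' ≤ δ := by
  obtain ⟨L, hL⟩ := exists_nat_ge ((j : ℝ) * |s'| / δ)
  refine ⟨L + 1, by omega, ?_⟩
  have hL1 : (0 : ℝ) < ((L + 1 : ℕ) : ℝ) := by positivity
  have h1 : (j : ℝ) * |s'| ≤ δ * L := by
    have := (div_le_iff₀ hδ).1 hL
    linarith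
  have h2 : (j : ℝ) * s' ≤ (j : ℝ) * |s'| :=
    mul_le_mul_of_nonneg_left (le_abs_self _) (by positivity)
  rw [div_mul_eq_mul_div, div_le_iff₀ hL1]
  push_cast
  nlinarith

/-- High values of a threshold sequence persist on long multiplicative ranges. -/
theorem highs_persist (hk : 2 ≤ k) (hr : IsThresholdSeq k r) {s s' : ℝ} (hs : 0 ≤ s) (hss : s < s')
    (hf : ∃ᶠ n : ℕ in atTop, s' < r n) {C : ℝ} (_hC : 1 ≤ C) :
    ∃ᶠ n : ℕ in atTop, ∀ N : ℕ, n ≤ N → (N : ℝ) ≤ C * n → s < r N := by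
  have hs'0 : 0 ≤ s' := by linarith
  obtain ⟨δ, hδ⟩ : ∃ δ : ℝ, δ = (s' - s) / 4 := ⟨_, rfl⟩
  have hδ0 : 0 < δ := by rw [hδ]; linarith
  obtain ⟨L, hL1, hL⟩ := exists_L (k - 1) (s' := s') hδ0
  have hLr : (0 : ℝ) < L := by exact_mod_cast hL1
  obtain ⟨C', hC'⟩ := exists_nat_ge C
  have hscale := scale_bound hk hr (C' * L + 1) hδ0
  have hfreq := hf.and_eventually (hscale.and (eventually_ge_atTop 1))
  rw [frequently_atTop] at hfreq ⊢
  intro a
  obtain ⟨n₀, hn₀a, hn₀r, hn₀s, hn₀1⟩ := hfreq a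
  refine ⟨L * n₀, ?_, ?_⟩
  · have : 1 * n₀ ≤ L * n₀ := Nat.mul_le_mul_right _ hL1
    omega
  intro N hN1 hN2
  have hn₀r' : (0 : ℝ) < n₀ := by exact_mod_cast hn₀1
  have hn₀N : n₀ ≤ N := by
    have : 1 * n₀ ≤ L * n₀ := Nat.mul_le_mul_right _ hL1
    omega
  have hNr : (0 : ℝ) < N := by
    have : 0 < N := by omega
    exact_mod_cast this
  obtain ⟨q, hq1, hqN, hqlt, hlow, hup⟩ := ceil_facts hn₀1 hn₀N
  have hqQ : q ≤ C' * L + 1 := by
    have h1 : (N : ℝ) / n₀ ≤ C' * L := by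
      rw [div_le_iff₀ hn₀r']
      have h2 : C * ((L * n₀ : ℕ) : ℝ) ≤ C' * ((L * n₀ : ℕ) : ℝ) :=
        mul_le_mul_of_nonneg_right hC' (by positivity)
      push_cast at h2 hN2
      linarith
    have h3 : (q : ℝ) < (C' * L + 1 : ℕ) + 1 := by
      push_cast
      linarith
    have h4 : q < C' * L + 1 + 1 := by exact_mod_cast h3
    omega
  have hbound := hn₀s q hq1 hqQ N hn₀N hqN
  -- the ratio is close to one
  have hratio : 1 - 1 / (L : ℝ) ≤ (N : ℝ) / (q * n₀) := by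
    have h1 : (n₀ : ℝ) / N ≤ 1 / L := by
      rw [div_le_div_iff₀ hNr hLr]
      have : ((L * n₀ : ℕ) : ℝ) ≤ N := by exact_mod_cast hN1
      push_cast at this
      linarith
    linarith
  have hpow := ratio_pow_lower hL1 hratio hs'0 (k - 1)
  have hpow2 : ((N : ℝ) / (q * n₀)) ^ (k - 1) * s' ≤ ((N : ℝ) / (q * n₀)) ^ (k - 1) * r n₀ := by
    apply mul_le_mul_of_nonneg_left hn₀r.le
    have : 0 ≤ (N : ℝ) / (q * n₀) := by positivity
    positivity
  have e : (1 - ((k - 1 : ℕ) : ℝ) / L) * s' = s' - ((k - 1 : ℕ) : ℝ) / L * s' := by ring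
  rw [e] at hpow
  rw [hδ] at hL hbound
  linarith

/-- Low values of a threshold sequence persist on long multiplicative ranges. -/
theorem lows_persist (hk : 2 ≤ k) (hr : IsThresholdSeq k r) {s s' : ℝ} (hs : 0 ≤ s) (hss : s < s')
    (hf : ∃ᶠ n : ℕ in atTop, r n < s) {C : ℝ} (_hC : 1 ≤ C) :
    ∃ᶠ M : ℕ in atTop, ∀ n : ℕ, M ≤ n → (n : ℝ) ≤ C * M → r n < s' := by
  have hs'0 : 0 ≤ s' := by linarith
  obtain ⟨δ, hδ⟩ : ∃ δ : ℝ, δ = (s' - s) / 4 := ⟨_, rfl⟩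
  have hδ0 : 0 < δ := by rw [hδ]; linarith
  obtain ⟨L, hL1, hL⟩ := exists_L (k - 1) (s' := s') hδ0
  have hLr : (0 : ℝ) < L := by exact_mod_cast hL1
  obtain ⟨C₀, hC₀⟩ := exists_nat_ge C
  obtain ⟨C', hC'1, hC'⟩ : ∃ C' : ℕ, 1 ≤ C' ∧ C ≤ C' :=
    ⟨C₀ + 1, by omega, by push_cast; linarith⟩
  have hscale := scale_bound hk hr (2 * (C' * L) + 1) hδ0
  obtain ⟨n₁, hn₁⟩ := eventually_atTop.1 hscale
  have hCL : 0 < C' * L := Nat.mul_pos hC'1 hL1
  rw [frequently_atTop] at hf ⊢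
  intro a
  obtain ⟨N, hNa, hNr⟩ := hf ((a + n₁ + 1) * (C' * L))
  obtain ⟨M, hM⟩ : ∃ M, M = N / (C' * L) := ⟨_, rfl⟩
  have hMge : a + n₁ + 1 ≤ M := by
    rw [hM]
    exact (Nat.le_div_iff_mul_le hCL).2 hNa
  have hMN : M * (C' * L) ≤ N := by rw [hM]; exact Nat.div_mul_le_self N _
  have hNlt : N < (M + 1) * (C' * L) := by
    rw [hM, add_mul, one_mul]
    have := Nat.div_add_mod N (C' * L)
    have := Nat.mod_lt N hCL
    have e : N / (C' * L) * (C' * L) = (C' * L) * (N / (C' * L)) := Nat.mul_comm _ _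
    omega
  refine ⟨M, by omega, fun n hn1 hn2 => ?_⟩
  by_contra hcon
  push Not at hcon
  have hn₁n : n₁ ≤ n := by omega
  have hnpos : 0 < n := by omega
  have hnr : (0 : ℝ) < n := by exact_mod_cast hnpos
  -- `L n ≤ N`
  have hLn : L * n ≤ N := by
    have h1 : (n : ℝ) ≤ C' * M := by
      have h2 : C * (M : ℝ) ≤ C' * M := mul_le_mul_of_nonneg_right hC' (by positivity)
      linarith
    have h2 : n ≤ C' * M := by exact_mod_cast h1
    calc L * n ≤ L * (C' * M) := Nat.mul_le_mul_left _ h2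
      _ = M * (C' * L) := by ring
      _ ≤ N := hMN
  have hnN : n ≤ N := by
    have : 1 * n ≤ L * n := Nat.mul_le_mul_right _ hL1
    omega
  have hNr0 : (0 : ℝ) < N := by
    have : 0 < N := by omega
    exact_mod_cast this
  obtain ⟨q, hq1, hqN, hqlt, hlow, hup⟩ := ceil_facts hnpos hnN
  have hqQ : q ≤ 2 * (C' * L) + 1 := by
    have h1 : N ≤ 2 * (C' * L) * n := by
      have h3 : M + 1 ≤ 2 * n := by omega
      calc N ≤ (M + 1) * (C' * L) := hNlt.le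
        _ ≤ (2 * n) * (C' * L) := Nat.mul_le_mul_right _ h3
        _ = 2 * (C' * L) * n := by ring
    have h2 : (N : ℝ) / n ≤ ((2 * (C' * L) : ℕ) : ℝ) := by
      rw [div_le_iff₀ hnr]
      exact_mod_cast h1
    have h3 : (q : ℝ) < ((2 * (C' * L) + 1 : ℕ) : ℝ) + 1 := by
      push_cast at h2 ⊢
      linarith
    have h4 : q < 2 * (C' * L) + 1 + 1 := by exact_mod_cast h3
    omega
  have hbound := hn₁ n hn₁n q hq1 hqQ N hnN hqN
  have hratio : 1 - 1 / (L : ℝ) ≤ (N : ℝ) / (q * n) := by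
    have h1 : (n : ℝ) / N ≤ 1 / L := by
      rw [div_le_div_iff₀ hNr0 hLr]
      have : ((L * n : ℕ) : ℝ) ≤ N := by exact_mod_cast hLn
      push_cast at this
      linarith
    linarith
  have hpow := ratio_pow_lower hL1 hratio hs'0 (k - 1)
  have hpow2 : ((N : ℝ) / (q * n)) ^ (k - 1) * s' ≤ ((N : ℝ) / (q * n)) ^ (k - 1) * r n := by
    apply mul_le_mul_of_nonneg_left hcon
    have : 0 ≤ (N : ℝ) / (q * n) := by positivity
    positivity
  have e : (1 - ((k - 1 : ℕ) : ℝ) / L) * s' = s' - ((k - 1 : ℕ) : ℝ) / L * s' := by ring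
  rw [e] at hpow
  rw [hδ] at hL hbound
  linarith

end Vale.Agent.Lib.P170B
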