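import Vale.Agent.Lib.P170B.Threshold

open Filter Topology

namespace Vale.Agent.Lib.P170B

open Vale.Agent.Lib.P170

variable {k : ℕ} {r : ℕ → ℝ}

/-- Splitting into `q` blocks of sizes `b` and `b + 1`. -/
theorem block_bound (hk : 2 ≤ k) (hr : IsThresholdSeq k r) {Q : ℕ} (hQ : 1 ≤ Q) {ε : ℝ} (hε : 0 < ε) :
    ∃ b₀ : ℕ, ∀ q : ℕ, 1 ≤ q → q ≤ Q → ∀ b : ℕ, b₀ ≤ b → ∀ N : ℕ, q * b ≤ N → N ≤ q * (b + 1) →
      min (r b) (r (b + 1)) - ε ≤ r N := by
  have hQ0 : (0 : ℝ) < Q := by exact_mod_cast hQ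
  obtain ⟨ε', hε'⟩ : ∃ ε' : ℝ, ε' = ε / Q := ⟨_, rfl⟩
  have hε'0 : 0 < ε' := by rw [hε']; positivity
  obtain ⟨n₀, hn₀⟩ := additive hk hr hε'0
  refine ⟨n₀, ?_⟩
  have key : ∀ q : ℕ, 1 ≤ q → ∀ b : ℕ, n₀ ≤ b → ∀ N : ℕ, q * b ≤ N → N ≤ q * (b + 1) →
      min (r b) (r (b + 1)) - q * ε' ≤ r N := by
    intro q hq
    induction q, hq using Nat.le_induction with
    | base =>
      intro b _ N h1 h2
      have hb : N = b ∨ N = b + 1 := by omega
      have hq' : 0 ≤ ((1 : ℕ) : ℝ) * ε' := by positivity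
      rcases hb with rfl | rfl
      · have := min_le_left (r N) (r (N + 1))
        linarith
      · have := min_le_right (r b) (r (b + 1))
        linarith
    | succ q hq ih =>
      intro b hb N h1 h2
      set m₀ := min (r b) (r (b + 1)) with hm₀
      have hm₁ : m₀ ≤ r b := min_le_left _ _
      have hm₂ : m₀ ≤ r (b + 1) := min_le_right _ _
      have hqε : 0 ≤ (q : ℝ) * ε' := by positivity
      push_cast
      by_cases hc : N ≤ q * (b + 1) + b
      · obtain ⟨N', rfl⟩ : ∃ N', N = N' + b := ⟨N - b, by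
          have : (q + 1) * b = q * b + b := by ring
          omega⟩
        have h3 : q * b ≤ N' := by
          have : (q + 1) * b = q * b + b := by ring
          omega
        have h4 : N' ≤ q * (b + 1) := by omega
        have h5 := ih b hb N' h3 h4
        have h6 : n₀ ≤ N' := by
          have : 1 * b ≤ q * b := Nat.mul_le_mul_right b hq
          omega
        have h7 := hn₀ N' b h6 hb
        have h8 : m₀ - q * ε' ≤ min (r N') (r b) := le_min h5 (by linarith)
        linarith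
      · have hN : N = q * (b + 1) + (b + 1) := by
          have : (q + 1) * (b + 1) = q * (b + 1) + (b + 1) := by ring
          omega
        subst hN
        have h5 := ih b hb (q * (b + 1)) (Nat.mul_le_mul_left q (by omega)) (le_refl _)
        have h6 : n₀ ≤ q * (b + 1) := by
          have : 1 * (b + 1) ≤ q * (b + 1) := Nat.mul_le_mul_right _ hq
          omega
        have h7 := hn₀ (q * (b + 1)) (b + 1) h6 (by omega)
        have h8 : m₀ - q * ε' ≤ min (r (q * (b + 1))) (r (b + 1)) := le_min h5 (by linarith)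
        linarith
  intro q hq hqQ b hb N h1 h2
  have h3 := key q hq b hb N h1 h2
  have h4 : (q : ℝ) * ε' ≤ ε := by
    have h5 : (q : ℝ) ≤ Q := by exact_mod_cast hqQ
    have h6 : (Q : ℝ) * ε' = ε := by
      rw [hε']
      field_simp
    have h7 := mul_le_mul_of_nonneg_right h5 hε'0.le
    linarith
  linarith

lemma pow_sub_pow_le_mul {a c : ℝ} (hc : 0 ≤ c) (hca : c ≤ a) (ha : a ≤ 1) (j : ℕ) :
    a ^ j - c ^ j ≤ j * (a - c) := by
  induction j with
  | zero => simp
  | succ j ih =>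
    have h1 : a ^ (j + 1) - c ^ (j + 1) = a * (a ^ j - c ^ j) + (a - c) * c ^ j := by ring
    have ha0 : 0 ≤ a := hc.trans hca
    have h2 : a ^ j - c ^ j ≥ 0 := by
      have := pow_le_pow_left₀ hc hca j
      linarith
    have h3 : a * (a ^ j - c ^ j) ≤ 1 * (j * (a - c)) := by
      apply mul_le_mul ha ih h2 (by norm_num)
    have h4 : (a - c) * c ^ j ≤ (a - c) * 1 := by
      apply mul_le_mul_of_nonneg_left _ (by linarith)
      exact pow_le_one₀ hc (hca.trans ha)
    rw [h1]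
    push_cast
    linarith

set_option maxHeartbeats 1000000 in
/-- The scale bound: `r N ≥ (N / (q n))^(k-1) r n - ε` as soon as `n ≤ N ≤ q n`, for bounded `q`. -/
theorem scale_bound (hk : 2 ≤ k) (hr : IsThresholdSeq k r) (Q : ℕ) {ε : ℝ} (hε : 0 < ε) :
    ∀ᶠ n : ℕ in atTop, ∀ q : ℕ, 1 ≤ q → q ≤ Q → ∀ N : ℕ, n ≤ N → N ≤ q * n →
      ((N : ℝ) / (q * n)) ^ (k - 1) * r n - ε ≤ r N := by
  have hk1 : 1 ≤ k := by omega
  rcases Nat.eq_zero_or_pos Q with rfl | hQpos
  · refine Eventually.of_forall (fun n q hq hq0 => ?_)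
    omega
  obtain ⟨K, hK0, hK⟩ := eventually_le_K hk1 hr
  obtain ⟨ε', hε'⟩ : ∃ ε' : ℝ, ε' = ε / 4 := ⟨_, rfl⟩
  have hε'0 : 0 < ε' := by rw [hε']; positivity
  have hεe : ε = 4 * ε' := by rw [hε']; ring
  obtain ⟨b₀, hb₀⟩ := block_bound hk hr hQpos hε'0
  have hdrop := no_drop hk1 hr (C := 1) (by norm_num) hε'0
  have hC2 : (1 : ℝ) ≤ 2 * Q := by
    have : (1 : ℝ) ≤ Q := by exact_mod_cast hQpos
    linarith
  have hup := up_bound hk1 hr hC2 hε'0
  obtain ⟨b₁, hb₁⟩ := eventually_atTop.1 (hdrop.and hup)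
  have hsize : ∀ᶠ n : ℕ in atTop, ((k : ℝ) - 1) * K / ε' ≤ (n : ℝ) :=
    tendsto_natCast_atTop_atTop.eventually_ge_atTop _
  filter_upwards [hK, hsize, eventually_ge_atTop (Q * (b₁ + b₀ + 1))] with n hKn hsz hnQ q hq hqQ N hnN hNq
  have hqpos : 0 < q := hq
  -- the block size
  obtain ⟨b, hb⟩ : ∃ b, b = N / q := ⟨_, rfl⟩
  have hqb : q * b ≤ N := by rw [hb]; exact Nat.mul_div_le N q
  have hNlt : N < q * (b + 1) := by
    rw [hb, mul_add, mul_one]
    have := Nat.div_add_mod N q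
    have := Nat.mod_lt N hqpos
    omega
  have hbn : b ≤ n := by
    rw [hb]
    exact Nat.div_le_of_le_mul hNq
  have hbge : b₁ + b₀ + 1 ≤ b := by
    have h1 : Q * (b₁ + b₀ + 1) ≤ q * (b + 1) := by omega
    have h2 : q * (b₁ + b₀ + 1) ≤ q * b := by
      by_contra hcon
      push Not at hcon
      have h3 : b < b₁ + b₀ + 1 := by
        by_contra h4
        push Not at h4
        exact absurd (Nat.mul_le_mul_left q h4) (by omega)
      -- `b + 1 ≤ b₁ + b₀ + 1`; use the size of `n` directly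
      have h5 : n ≤ N := hnN
      have h6 : N < q * (b + 1) := hNlt
      have h7 : q * (b + 1) ≤ q * (b₁ + b₀ + 1) := Nat.mul_le_mul_left q (by omega)
      have h8 : q * (b₁ + b₀ + 1) ≤ Q * (b₁ + b₀ + 1) := Nat.mul_le_mul_right _ hqQ
      omega
    exact Nat.le_of_mul_le_mul_left h2 hqpos
  obtain ⟨hdb, hub⟩ := hb₁ b (by omega)
  have hb0 : b₀ ≤ b := by omega
  have hbpos : 0 < b := by omega
  have hbr : (0 : ℝ) < b := by exact_mod_cast hbpos
  have hnr : (0 : ℝ) < n := by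
    have : 0 < n := by omega
    exact_mod_cast this
  have hqr : (0 : ℝ) < q := by exact_mod_cast hqpos
  -- combining blocks
  have hblock := hb₀ q hq hqQ b hb0 N hqb hNlt.le
  have hone : ((1 : ℕ) : ℝ) ≤ 1 * Real.sqrt b := by
    have : (1 : ℝ) ≤ b := by exact_mod_cast hbpos
    have h2 := Real.one_le_sqrt.2 this
    simpa using h2
  have hd := hdb 1 hone
  have hmin : r b - ε' ≤ min (r b) (r (b + 1)) := le_min (by linarith) (by linarith)
  have hNb : r b - 2 * ε' ≤ r N := by linarith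
  -- going down from `n` to `b`
  have hn2b : (n : ℝ) ≤ 2 * Q * b := by
    have h1 : n ≤ N := hnN
    have h2 : N < q * (b + 1) := hNlt
    have h3 : q * (b + 1) ≤ Q * (2 * b) := Nat.mul_le_mul hqQ (by omega)
    have h4 : n ≤ Q * (2 * b) := by omega
    have h5 : (n : ℝ) ≤ ((Q * (2 * b) : ℕ) : ℝ) := by exact_mod_cast h4
    push_cast at h5
    linarith
  have hu := hub n hbn hn2b
  -- the two ratios
  obtain ⟨c, hc⟩ : ∃ c : ℝ, c = (b : ℝ) / n := ⟨_, rfl⟩
  obtain ⟨a, ha⟩ : ∃ a : ℝ, a = (N : ℝ) / (q * n) := ⟨_, rfl⟩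
  rw [← ha]
  have hc0 : 0 ≤ c := by rw [hc]; positivity
  have hqn : (0 : ℝ) < q * n := by positivity
  have hca : c ≤ a := by
    rw [hc, ha, div_le_div_iff₀ hnr hqn]
    have : ((q * b : ℕ) : ℝ) ≤ (N : ℝ) := by exact_mod_cast hqb
    push_cast at this
    nlinarith
  have ha1 : a ≤ 1 := by
    rw [ha, div_le_one hqn]
    exact_mod_cast hNq
  have hac : a - c ≤ 1 / n := by
    have h1 : (N : ℝ) < q * (b + 1) := by exact_mod_cast hNlt
    have h2 : a ≤ ((b : ℝ) + 1) / n := by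
      rw [ha, div_le_div_iff₀ hqn hnr]
      nlinarith
    have h3 : ((b : ℝ) + 1) / n = c + 1 / n := by
      rw [hc]
      field_simp
    linarith
  have hc1 : c ≤ 1 := hca.trans ha1
  -- from `r n ≤ (n/b)^(k-1) r b + ε'`
  have hcmul : c ^ (k - 1) * r n ≤ r b + ε' := by
    have h1 : c ^ (k - 1) * ((n : ℝ) / b) ^ (k - 1) = 1 := by
      rw [← mul_pow, hc]
      have : (b : ℝ) / n * ((n : ℝ) / b) = 1 := by field_simp
      rw [this, one_pow]
    have h2 : 0 ≤ c ^ (k - 1) := by positivity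
    have h3 := mul_le_mul_of_nonneg_left hu h2
    have h4 : c ^ (k - 1) * (((n : ℝ) / b) ^ (k - 1) * r b + ε') =
        (c ^ (k - 1) * ((n : ℝ) / b) ^ (k - 1)) * r b + c ^ (k - 1) * ε' := by ring
    rw [h4, h1, one_mul] at h3
    have h5 : c ^ (k - 1) ≤ 1 := pow_le_one₀ hc0 hc1
    have h6 : c ^ (k - 1) * ε' ≤ 1 * ε' := mul_le_mul_of_nonneg_right h5 hε'0.le
    linarith
  -- from `c` to `a`
  have hak : a ^ (k - 1) * r n ≤ c ^ (k - 1) * r n + ε' := by
    have hsub := pow_sub_pow_le_mul hc0 hca ha1 (k - 1)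
    have hpow : c ^ (k - 1) ≤ a ^ (k - 1) := pow_le_pow_left₀ hc0 hca _
    have hk' : ((k - 1 : ℕ) : ℝ) = (k : ℝ) - 1 := by
      rw [Nat.cast_sub hk1]
      simp
    rcases le_or_gt 0 (r n) with hrn | hrn
    · have h1 : (a ^ (k - 1) - c ^ (k - 1)) * r n ≤ (((k : ℝ) - 1) * (1 / n)) * K := by
        apply mul_le_mul _ hKn hrn
        · have : (0 : ℝ) ≤ (k : ℝ) - 1 := by
            have : (1 : ℝ) ≤ k := by exact_mod_cast hk1
            linarith
          positivity
        · rw [hk'] at hsub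
          have hk0 : (0 : ℝ) ≤ (k : ℝ) - 1 := by
            have : (1 : ℝ) ≤ k := by exact_mod_cast hk1
            linarith
          have := mul_le_mul_of_nonneg_left hac hk0
          linarith
      have h2 : (((k : ℝ) - 1) * (1 / n)) * K ≤ ε' := by
        have e : (((k : ℝ) - 1) * (1 / n)) * K = ((k : ℝ) - 1) * K / n := by ring
        rw [e, div_le_iff₀ hnr]
        have := (div_le_iff₀ hε'0).1 hsz
        linarith
      nlinarith
    · have h1 : a ^ (k - 1) * r n ≤ c ^ (k - 1) * r n :=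
        mul_le_mul_of_nonpos_right hpow hrn.le
      linarith
  linarith

/-- Special case: exact multiples. -/
theorem multiple_bound (hk : 2 ≤ k) (hr : IsThresholdSeq k r) {m : ℕ} (hm : 1 ≤ m) {ε : ℝ} (hε : 0 < ε) :
    ∀ᶠ n : ℕ in atTop, r n - ε ≤ r (m * n) := by
  filter_upwards [scale_bound hk hr m hε, eventually_ge_atTop 1] with n hn hn1
  have h := hn m hm (le_refl _) (m * n) (Nat.le_mul_of_pos_left n hm) (le_refl _)
  have hmr : (0 : ℝ) < m := by exact_mod_cast hm
  have hnr : (0 : ℝ) < n := by exact_mod_cast hn1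
  have e : (((m * n : ℕ) : ℝ) / (m * n)) = 1 := by
    push_cast
    field_simp
  rw [e, one_pow, one_mul] at h
  exact h

end Vale.Agent.Lib.P170B
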