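import Vale.Agent.Lib.P170.Main
import Vale.Agent.Lib.P170B.Master

open Filter Topology

namespace Vale.Agent.Lib.P170B

open Vale.Agent.Lib.P170

variable {k : ℕ} {r : ℕ → ℝ}

set_option maxHeartbeats 1000000 in
/-- Choice of the number of slots and of the Chebyshev window: pure arithmetic. -/
lemma params {n₁ n₂ J J₁ J₂ : ℕ} {K ε₀ q A₀ K₁ x c₀ r₁ r₂ : ℝ}
    (hk : 2 ≤ k) (hK0 : 0 < K) (hε₀0 : 0 < ε₀) (hq0 : 0 < q) (hq1 : q < 1)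
    (hqinv : 1 / q = 1 + ε₀ / K) (hA₀ : A₀ = 2 * (k : ℝ) ^ 2 / (1 - q)) (hK₁ : K₁ = K + 2 * ε₀ + 1)
    (hn₁ : 0 < n₁) (hn₂ : 0 < n₂)
    (hs1₁ : 32 * K₁ / ε₀ ^ 2 ≤ (n₁ : ℝ)) (hs1₂ : 32 * K₁ / ε₀ ^ 2 ≤ (n₂ : ℝ))
    (hs1N : 32 * K₁ / ε₀ ^ 2 ≤ ((n₁ + n₂ : ℕ) : ℝ))
    (hs2N : 32 * K₁ * A₀ ^ 2 ≤ ((n₁ + n₂ : ℕ) : ℝ)) (hs3N : A₀ ≤ ((n₁ + n₂ : ℕ) : ℝ))
    (hs4₁ : 1 / ε₀ ≤ (n₁ : ℝ)) (hs4₂ : 1 / ε₀ ≤ (n₂ : ℝ))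
    (hc₁ : c₀ ≤ r₁) (hc₂ : c₀ ≤ r₂) (hc₀K : c₀ ≤ K) (hxpos : 0 < x) (hxlt : x < c₀ - 7 * ε₀)
    (hJle : (J : ℝ) ≤ x * ((n₁ + n₂ : ℕ) : ℝ))
    (hJ₁lt : (r₁ - ε₀) * n₁ < J₁ + 1) (hJ₂lt : (r₂ - ε₀) * n₂ < J₂ + 1) :
    ∃ (M : ℕ) (t : ℝ), 0 < t ∧ (J : ℝ) < M * q ∧
      (M : ℝ) * ((n₁ : ℝ) / (n₁ + n₂ : ℕ)) + t ≤ J₁ ∧
      (M : ℝ) * ((n₂ : ℝ) / (n₁ + n₂ : ℕ)) + t ≤ J₂ ∧
      ((M : ℝ) * ((n₁ : ℝ) / (n₁ + n₂ : ℕ)) * ((n₂ : ℝ) / (n₁ + n₂ : ℕ))) / t ^ 2 ≤ 1 / 32 ∧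
      (M * q * (1 - q)) / (M * q - J) ^ 2 ≤ 1 / 32 ∧
      (M : ℝ) * errTerm k q (n₁ + n₂) ≤ 1 / 32 := by
  have h1q : 0 < 1 - q := by linarith
  have hA₀0 : 0 ≤ A₀ := by rw [hA₀]; positivity
  have hK₁0 : 0 < K₁ := by rw [hK₁]; positivity
  have hn₁pos : (0 : ℝ) < n₁ := by exact_mod_cast hn₁
  have hn₂pos : (0 : ℝ) < n₂ := by exact_mod_cast hn₂
  obtain ⟨N, hN⟩ : ∃ N : ℝ, N = ((n₁ + n₂ : ℕ) : ℝ) := ⟨_, rfl⟩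
  rw [← hN] at hs1N hs2N hs3N hJle
  rw [← hN]
  have hNr : N = (n₁ : ℝ) + n₂ := by rw [hN]; push_cast; ring
  have hNpos : 0 < N := by rw [hNr]; positivity
  have hN1 : (1 : ℝ) ≤ N := by
    rw [hN]
    have : 1 ≤ n₁ + n₂ := by omega
    exact_mod_cast this
  have hxK : x + ε₀ ≤ K := by linarith
  -- the number of slots
  obtain ⟨M, hMge, hMlt⟩ : ∃ M : ℕ, (x + ε₀) * N / q ≤ M ∧ (M : ℝ) < (x + ε₀) * N / q + 1 :=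
    ⟨⌈(x + ε₀) * N / q⌉₊, Nat.le_ceil _, Nat.ceil_lt_add_one (by positivity)⟩
  have hdivq : (x + ε₀) / q ≤ x + 2 * ε₀ := by
    have e : (x + ε₀) / q = (x + ε₀) * (1 / q) := by ring
    rw [e, hqinv]
    have h2 : (x + ε₀) * (ε₀ / K) ≤ ε₀ := by
      have : (x + ε₀) * (ε₀ / K) = ((x + ε₀) / K) * ε₀ := by ring
      rw [this]
      have h3 : (x + ε₀) / K ≤ 1 := by
        rw [div_le_one hK0]
        exact hxK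
      calc (x + ε₀) / K * ε₀ ≤ 1 * ε₀ := mul_le_mul_of_nonneg_right h3 hε₀0.le
        _ = ε₀ := one_mul _
    have e3 : (x + ε₀) * (1 + ε₀ / K) = (x + ε₀) + (x + ε₀) * (ε₀ / K) := by ring
    rw [e3]
    linarith
  have hMN : (M : ℝ) ≤ K₁ * N := by
    have e : (x + ε₀) * N / q = ((x + ε₀) / q) * N := by ring
    have h3 : ((x + ε₀) / q) * N ≤ (x + 2 * ε₀) * N :=
      mul_le_mul_of_nonneg_right hdivq hNpos.le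
    have h4 : (x + 2 * ε₀) * N ≤ (K + 2 * ε₀) * N := by
      apply mul_le_mul_of_nonneg_right _ hNpos.le
      linarith
    rw [e] at hMlt
    rw [hK₁]
    have e5 : (K + 2 * ε₀ + 1) * N = (K + 2 * ε₀) * N + N := by ring
    rw [e5]
    linarith
  have hMq : (x + ε₀) * N ≤ M * q := (div_le_iff₀ hq0).1 hMge
  have hgap : ε₀ * N ≤ M * q - J := by
    have e : (x + ε₀) * N = x * N + ε₀ * N := by ring
    rw [e] at hMq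
    linarith
  have hgappos : 0 < M * q - J := lt_of_lt_of_le (by positivity) hgap
  have hJlt : (J : ℝ) < M * q := by linarith
  obtain ⟨m, hm1, hm2, hnn, hmpos, hm32⟩ : ∃ m : ℝ, m ≤ n₁ ∧ m ≤ n₂ ∧ (n₁ : ℝ) * n₂ ≤ m * N ∧ 0 < m ∧
      32 * K₁ / ε₀ ^ 2 ≤ m := by
    rcases le_total (n₁ : ℝ) n₂ with h | h
    · refine ⟨n₁, le_refl _, h, ?_, hn₁pos, hs1₁⟩
      rw [hNr]
      exact mul_le_mul_of_nonneg_left (by linarith) hn₁pos.le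
    · refine ⟨n₂, h, le_refl _, ?_, hn₂pos, hs1₂⟩
      rw [hNr, mul_comm]
      exact mul_le_mul_of_nonneg_left (by linarith) hn₂pos.le
  obtain ⟨t, ht⟩ : ∃ t : ℝ, t = ε₀ * m := ⟨_, rfl⟩
  have htpos : 0 < t := by rw [ht]; positivity
  obtain ⟨w₁, hw₁⟩ : ∃ w : ℝ, w = (n₁ : ℝ) / N := ⟨_, rfl⟩
  obtain ⟨w₂, hw₂⟩ : ∃ w : ℝ, w = (n₂ : ℝ) / N := ⟨_, rfl⟩
  rw [← hw₁, ← hw₂]
  have hw₁le : w₁ ≤ 1 := by
    rw [hw₁, div_le_one hNpos, hNr]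
    linarith
  have hw₂le : w₂ ≤ 1 := by
    rw [hw₂, div_le_one hNpos, hNr]
    linarith
  have hw₁0 : 0 ≤ w₁ := by rw [hw₁]; positivity
  have hw₂0 : 0 ≤ w₂ := by rw [hw₂]; positivity
  have hMw₁ : (M : ℝ) * w₁ ≤ (x + 2 * ε₀) * n₁ + 1 := by
    have h1 : (M : ℝ) * w₁ ≤ ((x + ε₀) * N / q + 1) * w₁ :=
      mul_le_mul_of_nonneg_right hMlt.le hw₁0
    have e : ((x + ε₀) * N / q + 1) * w₁ = ((x + ε₀) / q) * n₁ + w₁ := by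
      rw [hw₁]
      field_simp
    have h3 : ((x + ε₀) / q) * n₁ ≤ (x + 2 * ε₀) * n₁ :=
      mul_le_mul_of_nonneg_right hdivq hn₁pos.le
    linarith
  have hMw₂ : (M : ℝ) * w₂ ≤ (x + 2 * ε₀) * n₂ + 1 := by
    have h1 : (M : ℝ) * w₂ ≤ ((x + ε₀) * N / q + 1) * w₂ :=
      mul_le_mul_of_nonneg_right hMlt.le hw₂0
    have e : ((x + ε₀) * N / q + 1) * w₂ = ((x + ε₀) / q) * n₂ + w₂ := by
      rw [hw₂]
      field_simp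
    have h3 : ((x + ε₀) / q) * n₂ ≤ (x + 2 * ε₀) * n₂ :=
      mul_le_mul_of_nonneg_right hdivq hn₂pos.le
    linarith
  have hs4₁' : 1 ≤ ε₀ * n₁ := by
    have := (div_le_iff₀ hε₀0).1 hs4₁
    linarith
  have hs4₂' : 1 ≤ ε₀ * n₂ := by
    have := (div_le_iff₀ hε₀0).1 hs4₂
    linarith
  refine ⟨M, t, htpos, hJlt, ?_, ?_, ?_, ?_, ?_⟩
  · have h1 : (c₀ - ε₀) * n₁ ≤ (r₁ - ε₀) * n₁ :=
      mul_le_mul_of_nonneg_right (by linarith) hn₁pos.le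
    have h2 : (x + 2 * ε₀) * n₁ ≤ (c₀ - 5 * ε₀) * n₁ :=
      mul_le_mul_of_nonneg_right (by linarith) hn₁pos.le
    have h3 : t ≤ ε₀ * n₁ := by
      rw [ht]
      exact mul_le_mul_of_nonneg_left hm1 hε₀0.le
    have e1 : (c₀ - 5 * ε₀) * n₁ = c₀ * n₁ - 5 * (ε₀ * n₁) := by ring
    have e2 : (c₀ - ε₀) * n₁ = c₀ * n₁ - ε₀ * n₁ := by ring
    rw [e1] at h2
    rw [e2] at h1
    linarith
  · have h1 : (c₀ - ε₀) * n₂ ≤ (r₂ - ε₀) * n₂ :=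
      mul_le_mul_of_nonneg_right (by linarith) hn₂pos.le
    have h2 : (x + 2 * ε₀) * n₂ ≤ (c₀ - 5 * ε₀) * n₂ :=
      mul_le_mul_of_nonneg_right (by linarith) hn₂pos.le
    have h3 : t ≤ ε₀ * n₂ := by
      rw [ht]
      exact mul_le_mul_of_nonneg_left hm2 hε₀0.le
    have e1 : (c₀ - 5 * ε₀) * n₂ = c₀ * n₂ - 5 * (ε₀ * n₂) := by ring
    have e2 : (c₀ - ε₀) * n₂ = c₀ * n₂ - ε₀ * n₂ := by ring
    rw [e1] at h2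
    rw [e2] at h1
    linarith
  · -- first Chebyshev term
    have h1 : (M : ℝ) * w₁ * w₂ ≤ K₁ * m := by
      have e : (K₁ * N) * w₁ * w₂ = K₁ * ((n₁ : ℝ) * n₂ / N) := by
        rw [hw₁, hw₂]
        field_simp
      have h2 : (M : ℝ) * w₁ * w₂ ≤ (K₁ * N) * w₁ * w₂ := by
        apply mul_le_mul_of_nonneg_right _ hw₂0
        exact mul_le_mul_of_nonneg_right hMN hw₁0
      have h3 : (n₁ : ℝ) * n₂ / N ≤ m := by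
        rw [div_le_iff₀ hNpos]
        exact hnn
      have h4 : K₁ * ((n₁ : ℝ) * n₂ / N) ≤ K₁ * m := mul_le_mul_of_nonneg_left h3 hK₁0.le
      linarith
    rw [div_le_iff₀ (by positivity)]
    have h6 : 32 * K₁ ≤ m * ε₀ ^ 2 := (div_le_iff₀ (by positivity)).1 hm32
    have e2 : 1 / 32 * t ^ 2 = (m * ε₀ ^ 2) * m / 32 := by rw [ht]; ring
    have h7 : (32 * K₁) * m ≤ (m * ε₀ ^ 2) * m := mul_le_mul_of_nonneg_right h6 hmpos.le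
    rw [e2]
    linarith
  · -- second Chebyshev term
    have hM0 : (0 : ℝ) ≤ M := by positivity
    have h1 : M * q * (1 - q) ≤ K₁ * N := by
      have h2 : q * (1 - q) ≤ 1 := by nlinarith
      calc (M : ℝ) * q * (1 - q) = M * (q * (1 - q)) := by ring
        _ ≤ M * 1 := mul_le_mul_of_nonneg_left h2 hM0
        _ ≤ K₁ * N := by linarith
    have h3 : (ε₀ * N) ^ 2 ≤ (M * q - J) ^ 2 := pow_le_pow_left₀ (by positivity) hgap 2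
    rw [div_le_iff₀ (by positivity)]
    have h6 : 32 * K₁ ≤ N * ε₀ ^ 2 := (div_le_iff₀ (by positivity)).1 hs1N
    have e : (ε₀ * N) ^ 2 = (N * ε₀ ^ 2) * N := by ring
    have h7 : (32 * K₁) * N ≤ (N * ε₀ ^ 2) * N := mul_le_mul_of_nonneg_right h6 hNpos.le
    rw [e] at h3
    linarith
  · -- the interpolation error
    unfold errTerm
    rw [← hN]
    obtain ⟨y, hy⟩ : ∃ y : ℝ, y = 2 * (k : ℝ) ^ 2 / ((1 - q) * N) := ⟨_, rfl⟩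
    rw [← hy]
    have hye : y = A₀ / N := by
      rw [hy, hA₀]
      field_simp
    have hy0 : 0 ≤ y := by rw [hye]; positivity
    have hy1 : y ≤ 1 := by
      rw [hye, div_le_one hNpos]
      exact hs3N
    have h1 : y ^ k ≤ y ^ 2 := pow_le_pow_of_le_one hy0 hy1 hk
    have h2 : (M : ℝ) * y ^ k ≤ K₁ * N * y ^ 2 := by
      calc (M : ℝ) * y ^ k ≤ M * y ^ 2 := mul_le_mul_of_nonneg_left h1 (by positivity)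
        _ ≤ K₁ * N * y ^ 2 := mul_le_mul_of_nonneg_right hMN (by positivity)
    have h3 : K₁ * N * y ^ 2 = K₁ * A₀ ^ 2 / N := by
      rw [hye]
      field_simp
    have h4 : K₁ * A₀ ^ 2 / N ≤ 1 / 32 := by
      rw [div_le_iff₀ hNpos]
      linarith
    linarith

/-- Near superadditivity of every threshold sequence. -/
theorem additive (hk : 2 ≤ k) (hr : IsThresholdSeq k r) {ε : ℝ} (hε : 0 < ε) :
    ∃ n₀ : ℕ, ∀ n₁ n₂ : ℕ, n₀ ≤ n₁ → n₀ ≤ n₂ → min (r n₁) (r n₂) - ε ≤ r (n₁ + n₂) := by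
  have hk1 : 1 ≤ k := by omega
  obtain ⟨K, hK0, hK⟩ := eventually_le_K hk1 hr
  obtain ⟨ε₀, hε₀⟩ : ∃ ε₀ : ℝ, ε₀ = ε / 8 := ⟨_, rfl⟩
  have hε₀0 : 0 < ε₀ := by rw [hε₀]; positivity
  have hεe : ε = 8 * ε₀ := by rw [hε₀]; ring
  obtain ⟨q, hq⟩ : ∃ q : ℝ, q = K / (K + ε₀) := ⟨_, rfl⟩
  have hKε : 0 < K + ε₀ := by positivity
  have hq0 : 0 < q := by rw [hq]; positivity
  have hq1 : q < 1 := by
    rw [hq, div_lt_one hKε]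
    linarith
  have hqinv : 1 / q = 1 + ε₀ / K := by
    rw [hq]
    field_simp
  obtain ⟨A₀, hA₀⟩ : ∃ A₀ : ℝ, A₀ = 2 * (k : ℝ) ^ 2 / (1 - q) := ⟨_, rfl⟩
  obtain ⟨K₁, hK₁⟩ : ∃ K₁ : ℝ, K₁ = K + 2 * ε₀ + 1 := ⟨_, rfl⟩
  have hprob1 : ∀ᶠ n : ℕ in atTop, (7 / 8 : ℝ) < satProb k n ⌊(r n - ε₀) * n⌋₊ :=
    (hr ε₀ hε₀0).1.eventually (lt_mem_nhds (by norm_num))
  have hprob2 : ∀ᶠ n : ℕ in atTop, satProb k n ⌊(r n + ε₀) * n⌋₊ < 1 / 8 :=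
    (hr ε₀ hε₀0).2.eventually (gt_mem_nhds (by norm_num))
  have hpos := eventually_pos hr hε₀0
  have hs1 : ∀ᶠ n : ℕ in atTop, 32 * K₁ / ε₀ ^ 2 ≤ (n : ℝ) :=
    tendsto_natCast_atTop_atTop.eventually_ge_atTop _
  have hs2 : ∀ᶠ n : ℕ in atTop, 32 * K₁ * A₀ ^ 2 ≤ (n : ℝ) :=
    tendsto_natCast_atTop_atTop.eventually_ge_atTop _
  have hs3 : ∀ᶠ n : ℕ in atTop, A₀ ≤ (n : ℝ) :=
    tendsto_natCast_atTop_atTop.eventually_ge_atTop _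
  have hs4 : ∀ᶠ n : ℕ in atTop, 1 / ε₀ ≤ (n : ℝ) :=
    tendsto_natCast_atTop_atTop.eventually_ge_atTop _
  obtain ⟨n₀, hn₀⟩ := eventually_atTop.1 (hprob1.and (hprob2.and (hpos.and (hK.and
    (hs1.and (hs2.and (hs3.and (hs4.and ((eventually_ge_atTop k).and (eventually_ge_atTop 1))))))))))
  refine ⟨n₀, fun n₁ n₂ hn₁ hn₂ => ?_⟩
  by_contra hcon
  push Not at hcon
  obtain ⟨hP₁, -, -, hKn₁, hs1₁, -, -, hs4₁, hkn₁, hpos₁⟩ := hn₀ n₁ hn₁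
  obtain ⟨hP₂, -, -, hKn₂, hs1₂, -, -, hs4₂, hkn₂, hpos₂⟩ := hn₀ n₂ hn₂
  obtain ⟨-, hPN, hposN, -, hs1N, hs2N, hs3N, -, -, hposN'⟩ := hn₀ (n₁ + n₂) (by omega)
  have hNpos : (0 : ℝ) < ((n₁ + n₂ : ℕ) : ℝ) := by exact_mod_cast hposN'
  obtain ⟨c₀, hc₀⟩ : ∃ c₀ : ℝ, c₀ = min (r n₁) (r n₂) := ⟨_, rfl⟩
  rw [← hc₀] at hcon
  have hc₀1 : c₀ ≤ r n₁ := by rw [hc₀]; exact min_le_left _ _
  have hc₀2 : c₀ ≤ r n₂ := by rw [hc₀]; exact min_le_right _ _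
  have hc₀K : c₀ ≤ K := hc₀1.trans hKn₁
  obtain ⟨x, hx⟩ : ∃ x : ℝ, x = r (n₁ + n₂) + ε₀ := ⟨_, rfl⟩
  rw [← hx] at hPN hposN
  have hxpos : 0 < x := by
    by_contra h
    push Not at h
    have : x * ((n₁ + n₂ : ℕ) : ℝ) ≤ 0 := mul_nonpos_of_nonpos_of_nonneg h hNpos.le
    linarith
  have hxlt : x < c₀ - 7 * ε₀ := by
    rw [hx]
    linarith
  have hJle : ((⌊x * ((n₁ + n₂ : ℕ) : ℝ)⌋₊ : ℕ) : ℝ) ≤ x * ((n₁ + n₂ : ℕ) : ℝ) :=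
    Nat.floor_le (by positivity)
  obtain ⟨M, t, htpos, hJlt, ht₁, ht₂, hδ₁, hδ₂, hδ₃⟩ :=
    params (k := k) (J₁ := ⌊(r n₁ - ε₀) * n₁⌋₊) (J₂ := ⌊(r n₂ - ε₀) * n₂⌋₊) hk hK0 hε₀0 hq0 hq1 hqinv
      hA₀ hK₁ hpos₁ hpos₂ hs1₁ hs1₂ hs1N hs2N hs3N hs4₁ hs4₂ hc₀1 hc₀2 hc₀K hxpos hxlt hJle
      (Nat.lt_floor_add_one _) (Nat.lt_floor_add_one _)
  have hmaster := master hk1 hkn₁ hkn₂ hq0.le hq1 htpos hJlt ht₁ ht₂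
  have hprod : (49 / 64 : ℝ) ≤ satProb k n₁ ⌊(r n₁ - ε₀) * n₁⌋₊ * satProb k n₂ ⌊(r n₂ - ε₀) * n₂⌋₊ := by
    have : (7 / 8 : ℝ) * (7 / 8) ≤
        satProb k n₁ ⌊(r n₁ - ε₀) * n₁⌋₊ * satProb k n₂ ⌊(r n₂ - ε₀) * n₂⌋₊ :=
      mul_le_mul hP₁.le hP₂.le (by norm_num) (satProb_nonneg _ _ _)
    linarith
  have hprod2 := mul_le_mul hprod (show (31 / 32 : ℝ) ≤ 1 - ((M : ℝ) * ((n₁ : ℝ) / (n₁ + n₂ : ℕ)) *
      ((n₂ : ℝ) / (n₁ + n₂ : ℕ))) / t ^ 2 by linarith) (by norm_num)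
    (mul_nonneg (satProb_nonneg _ _ _) (satProb_nonneg _ _ _))
  linarith

end Vale.Agent.Lib.P170B
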